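import Vale.Agent.P030.T.Defs

/-!
# P030, row NV-G, part 1: the elementary series of `T/Defs.lean` and their differential equations
-/

open PowerSeries

namespace Vale.Agent.P030.H605

open Vale.Agent.P030.T

theorem dd_eq (f : ℚ⟦X⟧) : dd f = d⁄dX ℚ f := by
  ext n
  simp [dd, coeff_derivative, mul_comm]

theorem th_eq (f : ℚ⟦X⟧) : th f = X * d⁄dX ℚ f := by
  ext n
  rcases n with _ | n
  · simp [th]
  · rw [coeff_succ_X_mul, coeff_derivative]
    simp [th, mul_comm]

theorem coeff_X_sq_mul (f : ℚ⟦X⟧) (n : ℕ) : coeff (n + 2) (X ^ 2 * f) = coeff n f := by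
  rw [pow_two, mul_assoc, coeff_succ_X_mul, coeff_succ_X_mul]

theorem coeff_X_sq_mul_zero (f : ℚ⟦X⟧) : coeff 0 (X ^ 2 * f) = 0 := by
  rw [pow_two, mul_assoc, coeff_zero_X_mul]

theorem coeff_X_sq_mul_one (f : ℚ⟦X⟧) : coeff 1 (X ^ 2 * f) = 0 := by
  rw [pow_two, mul_assoc, coeff_succ_X_mul, coeff_zero_X_mul]

@[simp] theorem coeff_th (f : ℚ⟦X⟧) (n : ℕ) : coeff n (th f) = n * coeff n f := by
  simp [th]

theorem coeff_C_mul' (q : ℚ) (f : ℚ⟦X⟧) (n : ℕ) : coeff n (C q * f) = q * coeff n f := by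
  simp

/-! ### rational and logarithmic series -/

theorem geo_mul : (1 - X) * geo = 1 := by
  ext n
  rcases n with _ | n
  · simp [geo, sub_mul]
  · rw [sub_mul, one_mul, map_sub, coeff_succ_X_mul]
    simp [geo, coeff_one]

theorem geoa_mul : (1 + X) * geoa = 1 := by
  ext n
  rcases n with _ | n
  · simp [geoa, add_mul]
  · rw [add_mul, one_mul, map_add, coeff_succ_X_mul]
    simp [geoa, coeff_one, pow_succ]

theorem geo2_mul : (1 - X ^ 2) * geo2 = 1 := by
  ext n
  rcases n with _ | _ | n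
  · rw [sub_mul, one_mul, map_sub, coeff_X_sq_mul_zero]; simp [geo2]
  · rw [sub_mul, one_mul, map_sub, zero_add, coeff_X_sq_mul_one]; simp [geo2, coeff_one]
  · rw [sub_mul, one_mul, map_sub, add_assoc, coeff_X_sq_mul]
    simp [geo2, coeff_one, Nat.even_add]

theorem D_integ (f : ℚ⟦X⟧) : d⁄dX ℚ (integ f) = f := by
  ext n
  rw [coeff_derivative]
  simp only [integ, coeff_mk, Nat.succ_ne_zero, if_false, Nat.add_sub_cancel]
  have : ((n : ℚ) + 1) ≠ 0 := by positivity
  push_cast
  field_simp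

theorem D_lgm : (1 - X) * d⁄dX ℚ lgm = 1 := by
  have : d⁄dX ℚ lgm = geo := by
    ext n
    rw [coeff_derivative]
    simp only [lgm, geo, coeff_mk, Nat.succ_ne_zero, if_false]
    have : ((n : ℚ) + 1) ≠ 0 := by positivity
    push_cast
    field_simp
  rw [this, geo_mul]

theorem D_lgp : (1 + X) * d⁄dX ℚ lgp = 1 := by
  have : d⁄dX ℚ lgp = geoa := by
    ext n
    rw [coeff_derivative]
    simp only [lgp, geoa, coeff_mk, Nat.succ_ne_zero, if_false]
    have : ((n : ℚ) + 1) ≠ 0 := by positivity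
    push_cast
    field_simp
    ring
  rw [this, geoa_mul]

theorem D_li2 : X * d⁄dX ℚ li2 = lgm := by
  rw [← th_eq]
  ext n
  rw [coeff_th]
  rcases n with _ | n
  · simp [lgm]
  · simp only [li2, lgm, coeff_mk, Nat.succ_ne_zero, if_false]
    have : ((n : ℚ) + 1) ≠ 0 := by positivity
    push_cast
    field_simp

/-! ### the elliptic series -/

theorem serK_rec (n : ℕ) : ((n : ℚ) + 2) ^ 2 * coeff (n + 2) serK = ((n : ℚ) + 1) ^ 2 * coeff n serK := by
  simp only [serK, coeff_mk]
  rcases Nat.even_or_odd n with h | h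
  · have h2 : Even (n + 2) := by simpa [Nat.even_add] using h
    rw [if_pos h2, if_pos h]
    obtain ⟨m, rfl⟩ := h
    have e1 : (m + m + 2) / 2 = m + 1 := by omega
    have e2 : (m + m) / 2 = m := by omega
    rw [e1, e2]
    have key := Nat.succ_mul_centralBinom_succ m
    have key' : ((m : ℚ) + 1) * (Nat.centralBinom (m + 1) : ℚ)
        = 2 * (2 * (m : ℚ) + 1) * (Nat.centralBinom m : ℚ) := by
      exact_mod_cast key
    have e3 : (4 : ℚ) ^ (m + m + 2) = 16 * 4 ^ (m + m) := by rw [pow_add]; norm_num; ring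
    rw [e3]
    have h4 : (4 : ℚ) ^ (m + m) ≠ 0 := by positivity
    push_cast
    have e4 : ((m : ℚ) + m + 2) ^ 2 * ((Nat.centralBinom (m + 1) : ℚ) ^ 2 / (16 * 4 ^ (m + m)))
        = (((m : ℚ) + 1) * (Nat.centralBinom (m + 1) : ℚ)) ^ 2 / (4 * 4 ^ (m + m)) := by
      field_simp; ring
    rw [e4, key']
    field_simp
    ring
  · have h2 : ¬ Even (n + 2) := by
      rw [Nat.not_even_iff_odd]; exact h.add_even (by norm_num)
    rw [if_neg h2, if_neg (Nat.not_even_iff_odd.2 h)]
    ring

theorem serK_one : coeff 1 serK = 0 := by simp [serK]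
theorem serK_zero : coeff 0 serK = 1 := by simp [serK]

/-- the equation of `K` -/
theorem K_ode : (1 - X ^ 2) * th (th serK) = C 2 * (X ^ 2 * th serK) + X ^ 2 * serK := by
  ext n
  rw [sub_mul, one_mul, map_sub, map_add, coeff_C_mul']
  rcases n with _ | _ | n
  · simp only [coeff_X_sq_mul_zero]; simp
  · simp only [zero_add, coeff_X_sq_mul_one]; simp [serK_one]
  · rw [add_assoc, coeff_X_sq_mul, coeff_X_sq_mul, coeff_X_sq_mul]
    simp only [coeff_th]
    have := serK_rec n
    push_cast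
    linear_combination this

/-- the equation of `B` -/
theorem B_ode : (1 - X) * ((1 - X ^ 2) * th (th serB) - C 2 * (X ^ 2 * th serB) - X ^ 2 * serB)
    = - (C (1 / 4) * X) := by
  have h : (1 - X ^ 2) * th (th serB) - C 2 * (X ^ 2 * th serB) - X ^ 2 * serB
      = - (C (1 / 4) * (X * geo)) := by
    ext n
    rw [sub_mul, one_mul, map_sub, map_sub, map_sub, map_neg, coeff_C_mul', coeff_C_mul']
    rcases n with _ | _ | n
    · simp only [coeff_X_sq_mul_zero]; simp
    · simp only [zero_add, coeff_X_sq_mul_one, coeff_th]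
      rw [show (1 : ℕ) = 0 + 1 from rfl, coeff_succ_X_mul]
      simp [serB, cB, geo]
      norm_num
    · rw [add_assoc, coeff_X_sq_mul, coeff_X_sq_mul, coeff_X_sq_mul]
      rw [show n + (1 + 1) = (n + 1) + 1 from rfl, coeff_succ_X_mul]
      simp only [coeff_th, serB, coeff_mk, geo, cB]
      have : ((n : ℚ) + 2) ≠ 0 := by positivity
      push_cast
      field_simp
      ring
  rw [h]
  have := geo_mul
  linear_combination (-(C (1 / 4) * X)) * this

/-- the equation of `B2` -/
theorem B2_ode : (1 - X ^ 2) * th (th serB2)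
    = C 2 * (X ^ 2 * th serB2) + X ^ 2 * serB2 - C (1 / 4) * X := by
  ext n
  rw [sub_mul, one_mul, map_sub, map_sub, map_add, coeff_C_mul', coeff_C_mul']
  rcases n with _ | _ | n
  · simp only [coeff_X_sq_mul_zero]; simp
  · simp only [zero_add, coeff_X_sq_mul_one, coeff_th]
    simp [serB2, cB2]
    norm_num
  · rw [add_assoc, coeff_X_sq_mul, coeff_X_sq_mul, coeff_X_sq_mul]
    simp only [coeff_th, serB2, coeff_mk, cB2, coeff_X]
    have : ((n : ℚ) + 2) ≠ 0 := by positivity
    have h1 : ¬ (n + (1 + 1) = 1) := by omega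
    rw [if_neg h1]
    push_cast
    field_simp
    ring

theorem cMs_succ {n : ℕ} (h : Even n) : cMs (n + 2) = cMs n + (2 / ((n : ℚ) + 1) - 2 / ((n : ℚ) + 2)) := by
  obtain ⟨m, rfl⟩ := h
  have e1 : (m + m + 2) / 2 = m + 1 := by omega
  have e2 : (m + m) / 2 = m := by omega
  simp only [cMs, e1, e2, Finset.sum_range_succ]
  push_cast
  ring_nf

/-- the equation of `M` -/
theorem M_ode : (1 - X ^ 2) * th (th serM) + C 2 * th serK - C 2 * (X ^ 2 * th serK)
    = C 2 * (X ^ 2 * th serM) + X ^ 2 * serM + C 2 * (X ^ 2 * serK) := by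
  ext n
  rw [sub_mul, one_mul, map_sub, map_add, map_sub, map_add, map_add, coeff_C_mul', coeff_C_mul',
    coeff_C_mul', coeff_C_mul']
  rcases n with _ | _ | n
  · simp only [coeff_X_sq_mul_zero]; simp
  · simp only [zero_add, coeff_X_sq_mul_one, coeff_th]
    simp [serM, serK_one]
  · rw [add_assoc]
    simp only [coeff_X_sq_mul, coeff_th, serM, coeff_mk]
    have hK := serK_rec n
    rcases Nat.even_or_odd n with h | h
    · rw [← add_assoc, cMs_succ h]
      have h1 : ((n : ℚ) + 1) ≠ 0 := by positivity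
      have h2 : ((n : ℚ) + 2) ≠ 0 := by positivity
      have hK' : coeff (n + 2) serK = ((n : ℚ) + 1) ^ 2 * coeff n serK / ((n : ℚ) + 2) ^ 2 := by
        field_simp; linear_combination hK
      rw [show n + 1 + 1 = n + 2 from rfl, hK']
      push_cast
      field_simp
      ring
    · have h2 : ¬ Even n := Nat.not_even_iff_odd.2 h
      have h3 : ¬ Even (n + 2) := by
        rw [Nat.not_even_iff_odd]; exact h.add_even (by norm_num)
      have e1 : coeff n serK = 0 := by simp [serK, h2]
      have e2 : coeff (n + (1 + 1)) serK = 0 := by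
        rw [show n + (1 + 1) = n + 2 from rfl]; simp only [serK, coeff_mk, if_neg h3]
      rw [e1, e2]
      ring

end Vale.Agent.P030.H605
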