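import Vale.Agent.P030.H605.TableD
import Vale.Agent.P030.H782.NV
import Vale.Agent.P030.H200.LamSt
import Vale.Agent.P030.H579.DesA

/-!
# P030, NV: the zero estimate for design A
-/

namespace Vale.Agent.P030.H605

open Vale.Agent.P030.T Vale.Agent.P030.H782 Vale.Agent.P030.H579

theorem htsA : Hts parA 32 4 2 12 4 10 4 := by
  constructor <;> simp [parA]

/-- the finite table for design A -/
theorem tableSt_A : H782.TableSt H579.parA := tableSt htsA

/-- **NV for design A** -/
theorem stZE_A {c0 : ℕ} (hc : 7 ≤ c0) : StZE parA c0 :=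
  stZE_of H200.lamSt tableSt_A (by simp [parA]) (by simp [parA]) hc

end Vale.Agent.P030.H605
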