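import Vale.Agent.P030.H605.Ini

/-!
# P030, NV: the finite table `TableSt`

For every stable space `Λ` of constant vectors (structure `Sta`) a set of groups which is
independent on `Λ` at every cusp and whose total height is at least `dim Λ * D0`, under linear
conditions on the heights.
-/

namespace Vale.Agent.P030.H605

open Vale.Agent.P030.T Vale.Agent.P030.H782 Module

/-- the linear conditions: `n` main groups, `a` at `c0`, `b` at `c1`, `v2, v1` at `c2`, `x2, x1`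
at `c3` (lower bounds of the heights) -/
structure Hts (Pr : Par) (n a b v2 v1 x2 x1 : ℕ) : Prop where
  hz1 : n ≤ Pr.ht .z1
  hzl : n ≤ Pr.ht .zl
  hw1 : n ≤ Pr.ht .w1
  hwl : n ≤ Pr.ht .wl
  hwy : n ≤ Pr.ht .wy
  hz8 : a ≤ Pr.ht .z8
  hzab : a ≤ Pr.ht .zab
  hw8 : b ≤ Pr.ht .w8
  hwab : b ≤ Pr.ht .wab
  hwf7 : b ≤ Pr.ht .wf7
  hv2 : v2 ≤ Pr.ht .v2
  hvl : v1 ≤ Pr.ht .vl
  hv8 : v1 ≤ Pr.ht .v8
  hvb : v1 ≤ Pr.ht .vb
  hx2 : x2 ≤ Pr.ht .x2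
  hxl : x1 ≤ Pr.ht .xl
  hx1 : x1 ≤ Pr.ht .x1
  i1 : Pr.D0 ≤ n
  i5a : 5 * Pr.D0 ≤ 4 * n + 2 * a + b + v2 + 2 * v1 + x1
  i5b : 5 * Pr.D0 ≤ 4 * n + a + b + 2 * v1 + x2 + x1
  i5c : 5 * Pr.D0 ≤ 4 * n + a + 2 * b + v2 + 2 * v1 + x2 + 2 * x1
  i6a : 6 * Pr.D0 ≤ 5 * n + a + 2 * v1 + x1
  i6b : 6 * Pr.D0 ≤ 5 * n + a + 2 * b + v2 + 2 * v1 + x2 + 2 * x1
  i7a : 7 * Pr.D0 ≤ 5 * n + a + 2 * b + v2 + 2 * v1 + x2 + x1
  i7b : 7 * Pr.D0 ≤ 5 * n + a + 2 * b + v2 + 2 * v1 + 2 * x1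
  i7c : 7 * Pr.D0 ≤ 5 * n + 2 * a + 2 * b + 3 * v1 + x2 + 2 * x1
  i8 : 8 * Pr.D0 ≤ Pr.ht .z1 + Pr.ht .zl + Pr.ht .z8 + Pr.ht .zab + Pr.ht .w1 + Pr.ht .wl
    + Pr.ht .wy + Pr.ht .w8 + Pr.ht .wab + Pr.ht .wf7 + Pr.ht .v2 + Pr.ht .vl + Pr.ht .v8
    + Pr.ht .vb + Pr.ht .x2 + Pr.ht .xl + Pr.ht .x1

abbrev V8 := Fin 8 → ℚ

/-- independence on `Λ` of the groups in `J`, cusp by cusp, with explicit functionals -/
structure Ind (x : ℚ) (Λ : Submodule ℚ V8) (J : Finset Gp) : Prop where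
  i0 : ∀ p q r s : ℚ, (Gp.z1 ∉ J → p = 0) → (Gp.zl ∉ J → q = 0) → (Gp.z8 ∉ J → r = 0) →
    (Gp.zab ∉ J → s = 0) →
    (∀ v ∈ Λ, p * (v 0 - x * v 6) + q * v 1 + r * v 6 + s * v 3 = 0) →
    p = 0 ∧ q = 0 ∧ r = 0 ∧ s = 0
  i1 : ∀ p q r s t u : ℚ, (Gp.w1 ∉ J → p = 0) → (Gp.wl ∉ J → q = 0) → (Gp.wy ∉ J → r = 0) →
    (Gp.w8 ∉ J → s = 0) → (Gp.wab ∉ J → t = 0) → (Gp.wf7 ∉ J → u = 0) →
    (∀ v ∈ Λ, p * (v 0 - 1 / 8 * v 7) + q * (v 1 - v 2)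
      + r * (-4 / 3 * v 3 - 4 / 3 * v 4 - v 6 + 1 / 2 * v 7) + s * (v 6 - 1 / 2 * v 7)
      + t * v 3 + u * v 5 = 0) →
    p = 0 ∧ q = 0 ∧ r = 0 ∧ s = 0 ∧ t = 0 ∧ u = 0
  i2 : ∀ p q r s : ℚ, (Gp.v2 ∉ J → p = 0) → (Gp.vl ∉ J → q = 0) → (Gp.v8 ∉ J → r = 0) →
    (Gp.vb ∉ J → s = 0) →
    (∀ v ∈ Λ, p * (-v 3 - v 4 + v 5) + q * (-v 4 + v 5) + r * (-v 6 + v 7) + s * v 2 = 0) →
    p = 0 ∧ q = 0 ∧ r = 0 ∧ s = 0
  i3 : ∀ p q r : ℚ, (Gp.x2 ∉ J → p = 0) → (Gp.xl ∉ J → q = 0) → (Gp.x1 ∉ J → r = 0) →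
    (∀ v ∈ Λ, p * (1 / 2 * v 5) + q * (-v 4 + v 5) + r * (-v 2 + 1 / 8 * v 7) = 0) →
    p = 0 ∧ q = 0 ∧ r = 0

theorem sum_to {J U : Finset Gp} {c : Fin 4} (hU : ∀ g : Gp, g.cusp = c → g ∈ U)
    (a : Gp → ℚ) (ha : ∀ g, a g ≠ 0 → g ∈ J ∧ g.cusp = c) (f : Gp → ℚ) :
    ∑ g ∈ J, a g * f g = ∑ g ∈ U, a g * f g := by
  refine Finset.sum_congr_of_eq_on_inter ?_ ?_ ?_
  · intro g _ hg
    have : a g = 0 := by
      by_contra h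
      exact hg (hU g (ha g h).2)
    rw [this, zero_mul]
  · intro g _ hg
    have : a g = 0 := by
      by_contra h
      exact hg (ha g h).1
    rw [this, zero_mul]
  · intro g _ _
    rfl

theorem cusp0 : ∀ g : Gp, g.cusp = 0 → g ∈ ({.z1, .zl, .z8, .zab} : Finset Gp) := by
  intro g
  cases g <;> decide

theorem cusp1 : ∀ g : Gp, g.cusp = 1 → g ∈ ({.w1, .wl, .wy, .w8, .wab, .wf7} : Finset Gp) := by
  intro g
  cases g <;> decide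

theorem cusp2 : ∀ g : Gp, g.cusp = 2 → g ∈ ({.v2, .vl, .v8, .vb} : Finset Gp) := by
  intro g
  cases g <;> decide

theorem cusp3 : ∀ g : Gp, g.cusp = 3 → g ∈ ({.x2, .xl, .x1} : Finset Gp) := by
  intro g
  cases g <;> decide

theorem sumc0 (x : ℚ) {J : Finset Gp} (a : Gp → ℚ)
    (ha : ∀ g, a g ≠ 0 → g ∈ J ∧ g.cusp = 0) (v : V8) :
    ∑ g ∈ J, a g * val x g v = a .z1 * (v 0 - x * v 6) + a .zl * v 1 + a .z8 * v 6 + a .zab * v 3 := by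
  rw [sum_to cusp0 a ha, Finset.sum_insert (by decide), Finset.sum_insert (by decide), Finset.sum_insert (by decide),
    Finset.sum_singleton, val_z1, val_zl, val_z8, val_zab]
  ring

theorem sumc1 (x : ℚ) {J : Finset Gp} (a : Gp → ℚ)
    (ha : ∀ g, a g ≠ 0 → g ∈ J ∧ g.cusp = 1) (v : V8) :
    ∑ g ∈ J, a g * val x g v = a .w1 * (v 0 - 1 / 8 * v 7) + a .wl * (v 1 - v 2)
      + a .wy * (-4 / 3 * v 3 - 4 / 3 * v 4 - v 6 + 1 / 2 * v 7) + a .w8 * (v 6 - 1 / 2 * v 7)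
      + a .wab * v 3 + a .wf7 * v 5 := by
  rw [sum_to cusp1 a ha, Finset.sum_insert (by decide), Finset.sum_insert (by decide), Finset.sum_insert (by decide), Finset.sum_insert (by decide), Finset.sum_insert (by decide),
    Finset.sum_singleton, val_w1, val_wl, val_wy, val_w8, val_wab, val_wf7]
  ring

theorem sumc2 (x : ℚ) {J : Finset Gp} (a : Gp → ℚ)
    (ha : ∀ g, a g ≠ 0 → g ∈ J ∧ g.cusp = 2) (v : V8) :
    ∑ g ∈ J, a g * val x g v = a .v2 * (-v 3 - v 4 + v 5) + a .vl * (-v 4 + v 5) + a .v8 * (-v 6 + v 7)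
      + a .vb * v 2 := by
  rw [sum_to cusp2 a ha, Finset.sum_insert (by decide), Finset.sum_insert (by decide), Finset.sum_insert (by decide),
    Finset.sum_singleton, val_v2, val_vl, val_v8, val_vb]
  ring

theorem sumc3 (x : ℚ) {J : Finset Gp} (a : Gp → ℚ)
    (ha : ∀ g, a g ≠ 0 → g ∈ J ∧ g.cusp = 3) (v : V8) :
    ∑ g ∈ J, a g * val x g v = a .x2 * (1 / 2 * v 5) + a .xl * (-v 4 + v 5) + a .x1 * (-v 2 + 1 / 8 * v 7) := by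
  rw [sum_to cusp3 a ha, Finset.sum_insert (by decide), Finset.sum_insert (by decide),
    Finset.sum_singleton, val_x2, val_xl, val_x1]
  ring

theorem ind_spec {x : ℚ} {Λ : Submodule ℚ V8} {J : Finset Gp} (h : Ind x Λ J)
    (c : Fin 4) (a : Gp → ℚ) (ha : ∀ g, a g ≠ 0 → g ∈ J ∧ g.cusp = c)
    (hs : ∀ v ∈ Λ, ∑ g ∈ J, a g * ∑ j, ini x g j * v j = 0) (g : Gp) : a g = 0 := by
  have hJ : ∀ g, g ∉ J → a g = 0 := by
    intro g hg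
    by_contra h0
    exact hg (ha g h0).1
  have hC : ∀ g : Gp, g.cusp ≠ c → a g = 0 := by
    intro g hg
    by_contra h0
    exact hg (ha g h0).2
  have hs' : ∀ v ∈ Λ, ∑ g ∈ J, a g * val x g v = 0 := hs
  clear hs
  have hc : ∀ c : Fin 4, c = 0 ∨ c = 1 ∨ c = 2 ∨ c = 3 := by decide
  obtain rfl | rfl | rfl | rfl := hc c
  · obtain ⟨k1, k2, k3, k4⟩ := h.i0 (a .z1) (a .zl) (a .z8) (a .zab) (hJ .z1) (hJ .zl) (hJ .z8) (hJ .zab)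
      fun v hv => (sumc0 x a ha v).symm.trans (hs' v hv)
    cases g
    all_goals first
      | assumption
      | exact hC _ (by decide)
  · obtain ⟨k1, k2, k3, k4, k5, k6⟩ := h.i1 (a .w1) (a .wl) (a .wy) (a .w8) (a .wab) (a .wf7) (hJ .w1) (hJ .wl) (hJ .wy) (hJ .w8) (hJ .wab) (hJ .wf7)
      fun v hv => (sumc1 x a ha v).symm.trans (hs' v hv)
    cases g
    all_goals first
      | assumption
      | exact hC _ (by decide)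
  · obtain ⟨k1, k2, k3, k4⟩ := h.i2 (a .v2) (a .vl) (a .v8) (a .vb) (hJ .v2) (hJ .vl) (hJ .v8) (hJ .vb)
      fun v hv => (sumc2 x a ha v).symm.trans (hs' v hv)
    cases g
    all_goals first
      | assumption
      | exact hC _ (by decide)
  · obtain ⟨k1, k2, k3⟩ := h.i3 (a .x2) (a .xl) (a .x1) (hJ .x2) (hJ .xl) (hJ .x1)
      fun v hv => (sumc3 x a ha v).symm.trans (hs' v hv)
    cases g
    all_goals first
      | assumption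
      | exact hC _ (by decide)

end Vale.Agent.P030.H605
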