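import Vale.Agent.P030.H605.Table

/-!
# P030, NV: the finite table, dimension at most `5`
-/

set_option linter.unusedVariables false

namespace Vale.Agent.P030.H605

open Vale.Agent.P030.T Vale.Agent.P030.H782 Module

theorem ind_J1 (x : ℚ) {Λ : Submodule ℚ V8} {y : ℚ} (hl : (![y, 1, 0, 0, 0, 0, 0, 0] : V8) ∈ Λ) :
    Ind x Λ {.zl, .wl} := by
  constructor
  · intro p q r s kp kq kr ks H
    obtain rfl := kp (by decide)
    obtain rfl := kr (by decide)
    obtain rfl := ks (by decide)
    have hq0 : q = 0 := by
      have k := H _ hl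
      simp only [Matrix.cons_val] at k
      linarith
    subst hq0
    exact ⟨rfl, rfl, rfl, rfl⟩
  · intro p q r s t u kp kq kr ks kt ku H
    obtain rfl := kp (by decide)
    obtain rfl := kr (by decide)
    obtain rfl := ks (by decide)
    obtain rfl := kt (by decide)
    obtain rfl := ku (by decide)
    have hq0 : q = 0 := by
      have k := H _ hl
      simp only [Matrix.cons_val] at k
      linarith
    subst hq0
    exact ⟨rfl, rfl, rfl, rfl, rfl, rfl⟩
  · intro p q r s kp kq kr ks H
    obtain rfl := kp (by decide)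
    obtain rfl := kq (by decide)
    obtain rfl := kr (by decide)
    obtain rfl := ks (by decide)
    exact ⟨rfl, rfl, rfl, rfl⟩
  · intro p q r kp kq kr H
    obtain rfl := kp (by decide)
    obtain rfl := kq (by decide)
    obtain rfl := kr (by decide)
    exact ⟨rfl, rfl, rfl⟩

theorem sum_J1 {Pr : Par} {n a b v2 v1 x2 x1 : ℕ} (h : Hts Pr n a b v2 v1 x2 x1) :
    1 * Pr.D0 ≤ ∑ g ∈ ({.zl, .wl} : Finset Gp), Pr.ht g := by
  rw [Finset.sum_insert (by decide), Finset.sum_singleton]
  have := h.i1
  have := h.hzl
  have := h.hwl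
  omega

theorem ind_J2 (x : ℚ) {Λ : Submodule ℚ V8} (he0 : (![1, 0, 0, 0, 0, 0, 0, 0] : V8) ∈ Λ) :
    Ind x Λ {.z1, .w1} := by
  constructor
  · intro p q r s kp kq kr ks H
    obtain rfl := kq (by decide)
    obtain rfl := kr (by decide)
    obtain rfl := ks (by decide)
    have hp0 : p = 0 := by
      have k := H _ he0
      simp only [Matrix.cons_val] at k
      linarith
    subst hp0
    exact ⟨rfl, rfl, rfl, rfl⟩
  · intro p q r s t u kp kq kr ks kt ku H
    obtain rfl := kq (by decide)
    obtain rfl := kr (by decide)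
    obtain rfl := ks (by decide)
    obtain rfl := kt (by decide)
    obtain rfl := ku (by decide)
    have hp0 : p = 0 := by
      have k := H _ he0
      simp only [Matrix.cons_val] at k
      linarith
    subst hp0
    exact ⟨rfl, rfl, rfl, rfl, rfl, rfl⟩
  · intro p q r s kp kq kr ks H
    obtain rfl := kp (by decide)
    obtain rfl := kq (by decide)
    obtain rfl := kr (by decide)
    obtain rfl := ks (by decide)
    exact ⟨rfl, rfl, rfl, rfl⟩
  · intro p q r kp kq kr H
    obtain rfl := kp (by decide)
    obtain rfl := kq (by decide)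
    obtain rfl := kr (by decide)
    exact ⟨rfl, rfl, rfl⟩

theorem sum_J2 {Pr : Par} {n a b v2 v1 x2 x1 : ℕ} (h : Hts Pr n a b v2 v1 x2 x1) :
    1 * Pr.D0 ≤ ∑ g ∈ ({.z1, .w1} : Finset Gp), Pr.ht g := by
  rw [Finset.sum_insert (by decide), Finset.sum_singleton]
  have := h.i1
  have := h.hz1
  have := h.hw1
  omega

theorem ind_J3 (x : ℚ) {Λ : Submodule ℚ V8} (he0 : (![1, 0, 0, 0, 0, 0, 0, 0] : V8) ∈ Λ) (he6 : (![0, 0, 0, 0, 0, 0, 1, 0] : V8) ∈ Λ) :
    Ind x Λ {.z1, .z8, .w1, .wy} := by
  constructor
  · intro p q r s kp kq kr ks H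
    obtain rfl := kq (by decide)
    obtain rfl := ks (by decide)
    have hp0 : p = 0 := by
      have k := H _ he0
      simp only [Matrix.cons_val] at k
      linarith
    subst hp0
    have hr0 : r = 0 := by
      have k := H _ he6
      simp only [Matrix.cons_val] at k
      linarith
    subst hr0
    exact ⟨rfl, rfl, rfl, rfl⟩
  · intro p q r s t u kp kq kr ks kt ku H
    obtain rfl := kq (by decide)
    obtain rfl := ks (by decide)
    obtain rfl := kt (by decide)
    obtain rfl := ku (by decide)
    have hp0 : p = 0 := by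
      have k := H _ he0
      simp only [Matrix.cons_val] at k
      linarith
    subst hp0
    have hr0 : r = 0 := by
      have k := H _ he6
      simp only [Matrix.cons_val] at k
      linarith
    subst hr0
    exact ⟨rfl, rfl, rfl, rfl, rfl, rfl⟩
  · intro p q r s kp kq kr ks H
    obtain rfl := kp (by decide)
    obtain rfl := kq (by decide)
    obtain rfl := kr (by decide)
    obtain rfl := ks (by decide)
    exact ⟨rfl, rfl, rfl, rfl⟩
  · intro p q r kp kq kr H
    obtain rfl := kp (by decide)
    obtain rfl := kq (by decide)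
    obtain rfl := kr (by decide)
    exact ⟨rfl, rfl, rfl⟩

theorem sum_J3 {Pr : Par} {n a b v2 v1 x2 x1 : ℕ} (h : Hts Pr n a b v2 v1 x2 x1) :
    3 * Pr.D0 ≤ ∑ g ∈ ({.z1, .z8, .w1, .wy} : Finset Gp), Pr.ht g := by
  rw [Finset.sum_insert (by decide), Finset.sum_insert (by decide), Finset.sum_insert (by decide), Finset.sum_singleton]
  have := h.i1
  have := h.hz1
  have := h.hz8
  have := h.hw1
  have := h.hwy
  omega

theorem ind_J4 (x : ℚ) {Λ : Submodule ℚ V8} (he0 : (![1, 0, 0, 0, 0, 0, 0, 0] : V8) ∈ Λ) (he2 : (![0, 0, 1, 0, 0, 0, 0, 0] : V8) ∈ Λ) :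
    Ind x Λ {.z1, .w1, .wl} := by
  constructor
  · intro p q r s kp kq kr ks H
    obtain rfl := kq (by decide)
    obtain rfl := kr (by decide)
    obtain rfl := ks (by decide)
    have hp0 : p = 0 := by
      have k := H _ he0
      simp only [Matrix.cons_val] at k
      linarith
    subst hp0
    exact ⟨rfl, rfl, rfl, rfl⟩
  · intro p q r s t u kp kq kr ks kt ku H
    obtain rfl := kr (by decide)
    obtain rfl := ks (by decide)
    obtain rfl := kt (by decide)
    obtain rfl := ku (by decide)
    have hp0 : p = 0 := by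
      have k := H _ he0
      simp only [Matrix.cons_val] at k
      linarith
    subst hp0
    have hq0 : q = 0 := by
      have k := H _ he2
      simp only [Matrix.cons_val] at k
      linarith
    subst hq0
    exact ⟨rfl, rfl, rfl, rfl, rfl, rfl⟩
  · intro p q r s kp kq kr ks H
    obtain rfl := kp (by decide)
    obtain rfl := kq (by decide)
    obtain rfl := kr (by decide)
    obtain rfl := ks (by decide)
    exact ⟨rfl, rfl, rfl, rfl⟩
  · intro p q r kp kq kr H
    obtain rfl := kp (by decide)
    obtain rfl := kq (by decide)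
    obtain rfl := kr (by decide)
    exact ⟨rfl, rfl, rfl⟩

theorem sum_J4 {Pr : Par} {n a b v2 v1 x2 x1 : ℕ} (h : Hts Pr n a b v2 v1 x2 x1) :
    2 * Pr.D0 ≤ ∑ g ∈ ({.z1, .w1, .wl} : Finset Gp), Pr.ht g := by
  rw [Finset.sum_insert (by decide), Finset.sum_insert (by decide), Finset.sum_singleton]
  have := h.i1
  have := h.hz1
  have := h.hw1
  have := h.hwl
  omega

theorem ind_J5 (x : ℚ) {Λ : Submodule ℚ V8} (he0 : (![1, 0, 0, 0, 0, 0, 0, 0] : V8) ∈ Λ) (he2 : (![0, 0, 1, 0, 0, 0, 0, 0] : V8) ∈ Λ) (he6 : (![0, 0, 0, 0, 0, 0, 1, 0] : V8) ∈ Λ) :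
    Ind x Λ {.z1, .z8, .w1, .wl, .wy} := by
  constructor
  · intro p q r s kp kq kr ks H
    obtain rfl := kq (by decide)
    obtain rfl := ks (by decide)
    have hp0 : p = 0 := by
      have k := H _ he0
      simp only [Matrix.cons_val] at k
      linarith
    subst hp0
    have hr0 : r = 0 := by
      have k := H _ he6
      simp only [Matrix.cons_val] at k
      linarith
    subst hr0
    exact ⟨rfl, rfl, rfl, rfl⟩
  · intro p q r s t u kp kq kr ks kt ku H
    obtain rfl := ks (by decide)
    obtain rfl := kt (by decide)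
    obtain rfl := ku (by decide)
    have hp0 : p = 0 := by
      have k := H _ he0
      simp only [Matrix.cons_val] at k
      linarith
    subst hp0
    have hq0 : q = 0 := by
      have k := H _ he2
      simp only [Matrix.cons_val] at k
      linarith
    subst hq0
    have hr0 : r = 0 := by
      have k := H _ he6
      simp only [Matrix.cons_val] at k
      linarith
    subst hr0
    exact ⟨rfl, rfl, rfl, rfl, rfl, rfl⟩
  · intro p q r s kp kq kr ks H
    obtain rfl := kp (by decide)
    obtain rfl := kq (by decide)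
    obtain rfl := kr (by decide)
    obtain rfl := ks (by decide)
    exact ⟨rfl, rfl, rfl, rfl⟩
  · intro p q r kp kq kr H
    obtain rfl := kp (by decide)
    obtain rfl := kq (by decide)
    obtain rfl := kr (by decide)
    exact ⟨rfl, rfl, rfl⟩

theorem sum_J5 {Pr : Par} {n a b v2 v1 x2 x1 : ℕ} (h : Hts Pr n a b v2 v1 x2 x1) :
    4 * Pr.D0 ≤ ∑ g ∈ ({.z1, .z8, .w1, .wl, .wy} : Finset Gp), Pr.ht g := by
  rw [Finset.sum_insert (by decide), Finset.sum_insert (by decide), Finset.sum_insert (by decide), Finset.sum_insert (by decide), Finset.sum_singleton]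
  have := h.i1
  have := h.hz1
  have := h.hz8
  have := h.hw1
  have := h.hwl
  have := h.hwy
  omega

theorem ind_J6 (x : ℚ) {Λ : Submodule ℚ V8} {m : ℚ} (he0 : (![1, 0, 0, 0, 0, 0, 0, 0] : V8) ∈ Λ) (he2 : (![0, 0, 1, 0, 0, 0, 0, 0] : V8) ∈ Λ) (hqA : (![0, m, 0, 1, 0, 0, 0, 0] : V8) ∈ Λ) :
    Ind x Λ {.z1, .w1, .wl, .wy} := by
  constructor
  · intro p q r s kp kq kr ks H
    obtain rfl := kq (by decide)
    obtain rfl := kr (by decide)
    obtain rfl := ks (by decide)
    have hp0 : p = 0 := by
      have k := H _ he0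
      simp only [Matrix.cons_val] at k
      linarith
    subst hp0
    exact ⟨rfl, rfl, rfl, rfl⟩
  · intro p q r s t u kp kq kr ks kt ku H
    obtain rfl := ks (by decide)
    obtain rfl := kt (by decide)
    obtain rfl := ku (by decide)
    have hp0 : p = 0 := by
      have k := H _ he0
      simp only [Matrix.cons_val] at k
      linarith
    subst hp0
    have hq0 : q = 0 := by
      have k := H _ he2
      simp only [Matrix.cons_val] at k
      linarith
    subst hq0
    have hr0 : r = 0 := by
      have k := H _ hqA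
      simp only [Matrix.cons_val] at k
      linarith
    subst hr0
    exact ⟨rfl, rfl, rfl, rfl, rfl, rfl⟩
  · intro p q r s kp kq kr ks H
    obtain rfl := kp (by decide)
    obtain rfl := kq (by decide)
    obtain rfl := kr (by decide)
    obtain rfl := ks (by decide)
    exact ⟨rfl, rfl, rfl, rfl⟩
  · intro p q r kp kq kr H
    obtain rfl := kp (by decide)
    obtain rfl := kq (by decide)
    obtain rfl := kr (by decide)
    exact ⟨rfl, rfl, rfl⟩

theorem sum_J6 {Pr : Par} {n a b v2 v1 x2 x1 : ℕ} (h : Hts Pr n a b v2 v1 x2 x1) :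
    3 * Pr.D0 ≤ ∑ g ∈ ({.z1, .w1, .wl, .wy} : Finset Gp), Pr.ht g := by
  rw [Finset.sum_insert (by decide), Finset.sum_insert (by decide), Finset.sum_insert (by decide), Finset.sum_singleton]
  have := h.i1
  have := h.hz1
  have := h.hw1
  have := h.hwl
  have := h.hwy
  omega

theorem ind_J7 (x : ℚ) {Λ : Submodule ℚ V8} {m : ℚ} (he0 : (![1, 0, 0, 0, 0, 0, 0, 0] : V8) ∈ Λ) (he2 : (![0, 0, 1, 0, 0, 0, 0, 0] : V8) ∈ Λ) (hqA : (![0, m, 0, 1, 0, 0, 0, 0] : V8) ∈ Λ) (he6 : (![0, 0, 0, 0, 0, 0, 1, 0] : V8) ∈ Λ) :
    Ind x Λ {.z1, .z8, .zab, .w1, .wl, .wy, .w8, .v2, .v8, .vb, .x1} := by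
  constructor
  · intro p q r s kp kq kr ks H
    obtain rfl := kq (by decide)
    have hp0 : p = 0 := by
      have k := H _ he0
      simp only [Matrix.cons_val] at k
      linarith
    subst hp0
    have hr0 : r = 0 := by
      have k := H _ he6
      simp only [Matrix.cons_val] at k
      linarith
    subst hr0
    have hs0 : s = 0 := by
      have k := H _ hqA
      simp only [Matrix.cons_val] at k
      linarith
    subst hs0
    exact ⟨rfl, rfl, rfl, rfl⟩
  · intro p q r s t u kp kq kr ks kt ku H
    obtain rfl := kt (by decide)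
    obtain rfl := ku (by decide)
    have hp0 : p = 0 := by
      have k := H _ he0
      simp only [Matrix.cons_val] at k
      linarith
    subst hp0
    have hq0 : q = 0 := by
      have k := H _ he2
      simp only [Matrix.cons_val] at k
      linarith
    subst hq0
    have hr0 : r = 0 := by
      have k := H _ hqA
      simp only [Matrix.cons_val] at k
      linarith
    subst hr0
    have hs0 : s = 0 := by
      have k := H _ he6
      simp only [Matrix.cons_val] at k
      linarith
    subst hs0
    exact ⟨rfl, rfl, rfl, rfl, rfl, rfl⟩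
  · intro p q r s kp kq kr ks H
    obtain rfl := kq (by decide)
    have hp0 : p = 0 := by
      have k := H _ hqA
      simp only [Matrix.cons_val] at k
      linarith
    subst hp0
    have hr0 : r = 0 := by
      have k := H _ he6
      simp only [Matrix.cons_val] at k
      linarith
    subst hr0
    have hs0 : s = 0 := by
      have k := H _ he2
      simp only [Matrix.cons_val] at k
      linarith
    subst hs0
    exact ⟨rfl, rfl, rfl, rfl⟩
  · intro p q r kp kq kr H
    obtain rfl := kp (by decide)
    obtain rfl := kq (by decide)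
    have hr0 : r = 0 := by
      have k := H _ he2
      simp only [Matrix.cons_val] at k
      linarith
    subst hr0
    exact ⟨rfl, rfl, rfl⟩

theorem sum_J7 {Pr : Par} {n a b v2 v1 x2 x1 : ℕ} (h : Hts Pr n a b v2 v1 x2 x1) :
    5 * Pr.D0 ≤ ∑ g ∈ ({.z1, .z8, .zab, .w1, .wl, .wy, .w8, .v2, .v8, .vb, .x1} : Finset Gp), Pr.ht g := by
  rw [Finset.sum_insert (by decide), Finset.sum_insert (by decide), Finset.sum_insert (by decide), Finset.sum_insert (by decide), Finset.sum_insert (by decide), Finset.sum_insert (by decide), Finset.sum_insert (by decide), Finset.sum_insert (by decide), Finset.sum_insert (by decide), Finset.sum_insert (by decide), Finset.sum_singleton]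
  have := h.i1
  have := h.hz1
  have := h.hz8
  have := h.hzab
  have := h.hw1
  have := h.hwl
  have := h.hwy
  have := h.hw8
  have := h.hv2
  have := h.hv8
  have := h.hvb
  have := h.hx1
  have := h.i5a
  omega

theorem ind_J8 (x : ℚ) {Λ : Submodule ℚ V8} {y : ℚ} (he0 : (![1, 0, 0, 0, 0, 0, 0, 0] : V8) ∈ Λ) (hm : (![0, 1, y, 0, 0, 0, 0, 0] : V8) ∈ Λ) :
    Ind x Λ {.z1, .zl, .w1} := by
  constructor
  · intro p q r s kp kq kr ks H
    obtain rfl := kr (by decide)
    obtain rfl := ks (by decide)
    have hp0 : p = 0 := by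
      have k := H _ he0
      simp only [Matrix.cons_val] at k
      linarith
    subst hp0
    have hq0 : q = 0 := by
      have k := H _ hm
      simp only [Matrix.cons_val] at k
      linarith
    subst hq0
    exact ⟨rfl, rfl, rfl, rfl⟩
  · intro p q r s t u kp kq kr ks kt ku H
    obtain rfl := kq (by decide)
    obtain rfl := kr (by decide)
    obtain rfl := ks (by decide)
    obtain rfl := kt (by decide)
    obtain rfl := ku (by decide)
    have hp0 : p = 0 := by
      have k := H _ he0
      simp only [Matrix.cons_val] at k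
      linarith
    subst hp0
    exact ⟨rfl, rfl, rfl, rfl, rfl, rfl⟩
  · intro p q r s kp kq kr ks H
    obtain rfl := kp (by decide)
    obtain rfl := kq (by decide)
    obtain rfl := kr (by decide)
    obtain rfl := ks (by decide)
    exact ⟨rfl, rfl, rfl, rfl⟩
  · intro p q r kp kq kr H
    obtain rfl := kp (by decide)
    obtain rfl := kq (by decide)
    obtain rfl := kr (by decide)
    exact ⟨rfl, rfl, rfl⟩

theorem sum_J8 {Pr : Par} {n a b v2 v1 x2 x1 : ℕ} (h : Hts Pr n a b v2 v1 x2 x1) :
    2 * Pr.D0 ≤ ∑ g ∈ ({.z1, .zl, .w1} : Finset Gp), Pr.ht g := by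
  rw [Finset.sum_insert (by decide), Finset.sum_insert (by decide), Finset.sum_singleton]
  have := h.i1
  have := h.hz1
  have := h.hzl
  have := h.hw1
  omega

theorem ind_J9 (x : ℚ) {Λ : Submodule ℚ V8} {y : ℚ} (he0 : (![1, 0, 0, 0, 0, 0, 0, 0] : V8) ∈ Λ) (hm : (![0, 1, y, 0, 0, 0, 0, 0] : V8) ∈ Λ) (he6 : (![0, 0, 0, 0, 0, 0, 1, 0] : V8) ∈ Λ) :
    Ind x Λ {.z1, .zl, .z8, .w1, .wy} := by
  constructor
  · intro p q r s kp kq kr ks H
    obtain rfl := ks (by decide)
    have hp0 : p = 0 := by
      have k := H _ he0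
      simp only [Matrix.cons_val] at k
      linarith
    subst hp0
    have hq0 : q = 0 := by
      have k := H _ hm
      simp only [Matrix.cons_val] at k
      linarith
    subst hq0
    have hr0 : r = 0 := by
      have k := H _ he6
      simp only [Matrix.cons_val] at k
      linarith
    subst hr0
    exact ⟨rfl, rfl, rfl, rfl⟩
  · intro p q r s t u kp kq kr ks kt ku H
    obtain rfl := kq (by decide)
    obtain rfl := ks (by decide)
    obtain rfl := kt (by decide)
    obtain rfl := ku (by decide)
    have hp0 : p = 0 := by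
      have k := H _ he0
      simp only [Matrix.cons_val] at k
      linarith
    subst hp0
    have hr0 : r = 0 := by
      have k := H _ he6
      simp only [Matrix.cons_val] at k
      linarith
    subst hr0
    exact ⟨rfl, rfl, rfl, rfl, rfl, rfl⟩
  · intro p q r s kp kq kr ks H
    obtain rfl := kp (by decide)
    obtain rfl := kq (by decide)
    obtain rfl := kr (by decide)
    obtain rfl := ks (by decide)
    exact ⟨rfl, rfl, rfl, rfl⟩
  · intro p q r kp kq kr H
    obtain rfl := kp (by decide)
    obtain rfl := kq (by decide)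
    obtain rfl := kr (by decide)
    exact ⟨rfl, rfl, rfl⟩

theorem sum_J9 {Pr : Par} {n a b v2 v1 x2 x1 : ℕ} (h : Hts Pr n a b v2 v1 x2 x1) :
    4 * Pr.D0 ≤ ∑ g ∈ ({.z1, .zl, .z8, .w1, .wy} : Finset Gp), Pr.ht g := by
  rw [Finset.sum_insert (by decide), Finset.sum_insert (by decide), Finset.sum_insert (by decide), Finset.sum_insert (by decide), Finset.sum_singleton]
  have := h.i1
  have := h.hz1
  have := h.hzl
  have := h.hz8
  have := h.hw1
  have := h.hwy
  omega

theorem ind_J10 (x : ℚ) {Λ : Submodule ℚ V8} {m : ℚ} (he0 : (![1, 0, 0, 0, 0, 0, 0, 0] : V8) ∈ Λ) (hm1 : (![0, 1, 1, 0, 0, 0, 0, 0] : V8) ∈ Λ) (hqB : (![0, 0, m, 0, 1, 1, 0, 0] : V8) ∈ Λ) :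
    Ind x Λ {.z1, .zl, .w1, .wy} := by
  constructor
  · intro p q r s kp kq kr ks H
    obtain rfl := kr (by decide)
    obtain rfl := ks (by decide)
    have hp0 : p = 0 := by
      have k := H _ he0
      simp only [Matrix.cons_val] at k
      linarith
    subst hp0
    have hq0 : q = 0 := by
      have k := H _ hm1
      simp only [Matrix.cons_val] at k
      linarith
    subst hq0
    exact ⟨rfl, rfl, rfl, rfl⟩
  · intro p q r s t u kp kq kr ks kt ku H
    obtain rfl := kq (by decide)
    obtain rfl := ks (by decide)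
    obtain rfl := kt (by decide)
    obtain rfl := ku (by decide)
    have hp0 : p = 0 := by
      have k := H _ he0
      simp only [Matrix.cons_val] at k
      linarith
    subst hp0
    have hr0 : r = 0 := by
      have k := H _ hqB
      simp only [Matrix.cons_val] at k
      linarith
    subst hr0
    exact ⟨rfl, rfl, rfl, rfl, rfl, rfl⟩
  · intro p q r s kp kq kr ks H
    obtain rfl := kp (by decide)
    obtain rfl := kq (by decide)
    obtain rfl := kr (by decide)
    obtain rfl := ks (by decide)
    exact ⟨rfl, rfl, rfl, rfl⟩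
  · intro p q r kp kq kr H
    obtain rfl := kp (by decide)
    obtain rfl := kq (by decide)
    obtain rfl := kr (by decide)
    exact ⟨rfl, rfl, rfl⟩

theorem sum_J10 {Pr : Par} {n a b v2 v1 x2 x1 : ℕ} (h : Hts Pr n a b v2 v1 x2 x1) :
    3 * Pr.D0 ≤ ∑ g ∈ ({.z1, .zl, .w1, .wy} : Finset Gp), Pr.ht g := by
  rw [Finset.sum_insert (by decide), Finset.sum_insert (by decide), Finset.sum_insert (by decide), Finset.sum_singleton]
  have := h.i1
  have := h.hz1
  have := h.hzl
  have := h.hw1
  have := h.hwy
  omega

theorem ind_J11 (x : ℚ) {Λ : Submodule ℚ V8} {m : ℚ} (he0 : (![1, 0, 0, 0, 0, 0, 0, 0] : V8) ∈ Λ) (hm1 : (![0, 1, 1, 0, 0, 0, 0, 0] : V8) ∈ Λ) (hqB : (![0, 0, m, 0, 1, 1, 0, 0] : V8) ∈ Λ) (he6 : (![0, 0, 0, 0, 0, 0, 1, 0] : V8) ∈ Λ) (he7 : (![0, 0, 0, 0, 0, 0, 0, 1] : V8) ∈ Λ) :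
    Ind x Λ {.z1, .zl, .z8, .w1, .wy, .w8, .v8, .vb, .x2, .x1} := by
  constructor
  · intro p q r s kp kq kr ks H
    obtain rfl := ks (by decide)
    have hp0 : p = 0 := by
      have k := H _ he0
      simp only [Matrix.cons_val] at k
      linarith
    subst hp0
    have hq0 : q = 0 := by
      have k := H _ hm1
      simp only [Matrix.cons_val] at k
      linarith
    subst hq0
    have hr0 : r = 0 := by
      have k := H _ he6
      simp only [Matrix.cons_val] at k
      linarith
    subst hr0
    exact ⟨rfl, rfl, rfl, rfl⟩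
  · intro p q r s t u kp kq kr ks kt ku H
    obtain rfl := kq (by decide)
    obtain rfl := kt (by decide)
    obtain rfl := ku (by decide)
    have hp0 : p = 0 := by
      have k := H _ he0
      simp only [Matrix.cons_val] at k
      linarith
    subst hp0
    have hr0 : r = 0 := by
      have k := H _ hqB
      simp only [Matrix.cons_val] at k
      linarith
    subst hr0
    have hs0 : s = 0 := by
      have k := H _ he6
      simp only [Matrix.cons_val] at k
      linarith
    subst hs0
    exact ⟨rfl, rfl, rfl, rfl, rfl, rfl⟩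
  · intro p q r s kp kq kr ks H
    obtain rfl := kp (by decide)
    obtain rfl := kq (by decide)
    have hr0 : r = 0 := by
      have k := H _ he6
      simp only [Matrix.cons_val] at k
      linarith
    subst hr0
    have hs0 : s = 0 := by
      have k := H _ hm1
      simp only [Matrix.cons_val] at k
      linarith
    subst hs0
    exact ⟨rfl, rfl, rfl, rfl⟩
  · intro p q r kp kq kr H
    obtain rfl := kq (by decide)
    have hr0 : r = 0 := by
      have k := H _ he7
      simp only [Matrix.cons_val] at k
      linarith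
    subst hr0
    have hp0 : p = 0 := by
      have k := H _ hqB
      simp only [Matrix.cons_val] at k
      linarith
    subst hp0
    exact ⟨rfl, rfl, rfl⟩

theorem sum_J11 {Pr : Par} {n a b v2 v1 x2 x1 : ℕ} (h : Hts Pr n a b v2 v1 x2 x1) :
    5 * Pr.D0 ≤ ∑ g ∈ ({.z1, .zl, .z8, .w1, .wy, .w8, .v8, .vb, .x2, .x1} : Finset Gp), Pr.ht g := by
  rw [Finset.sum_insert (by decide), Finset.sum_insert (by decide), Finset.sum_insert (by decide), Finset.sum_insert (by decide), Finset.sum_insert (by decide), Finset.sum_insert (by decide), Finset.sum_insert (by decide), Finset.sum_insert (by decide), Finset.sum_insert (by decide), Finset.sum_singleton]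
  have := h.i1
  have := h.hz1
  have := h.hzl
  have := h.hz8
  have := h.hw1
  have := h.hwy
  have := h.hw8
  have := h.hv8
  have := h.hvb
  have := h.hx2
  have := h.hx1
  have := h.i5b
  omega

theorem ind_J12 (x : ℚ) {Λ : Submodule ℚ V8} (he0 : (![1, 0, 0, 0, 0, 0, 0, 0] : V8) ∈ Λ) (hm2 : (![0, 1, 2, 0, 0, 0, 0, 0] : V8) ∈ Λ) :
    Ind x Λ {.z1, .zl, .w1, .wl} := by
  constructor
  · intro p q r s kp kq kr ks H
    obtain rfl := kr (by decide)
    obtain rfl := ks (by decide)
    have hp0 : p = 0 := by
      have k := H _ he0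
      simp only [Matrix.cons_val] at k
      linarith
    subst hp0
    have hq0 : q = 0 := by
      have k := H _ hm2
      simp only [Matrix.cons_val] at k
      linarith
    subst hq0
    exact ⟨rfl, rfl, rfl, rfl⟩
  · intro p q r s t u kp kq kr ks kt ku H
    obtain rfl := kr (by decide)
    obtain rfl := ks (by decide)
    obtain rfl := kt (by decide)
    obtain rfl := ku (by decide)
    have hp0 : p = 0 := by
      have k := H _ he0
      simp only [Matrix.cons_val] at k
      linarith
    subst hp0
    have hq0 : q = 0 := by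
      have k := H _ hm2
      simp only [Matrix.cons_val] at k
      linarith
    subst hq0
    exact ⟨rfl, rfl, rfl, rfl, rfl, rfl⟩
  · intro p q r s kp kq kr ks H
    obtain rfl := kp (by decide)
    obtain rfl := kq (by decide)
    obtain rfl := kr (by decide)
    obtain rfl := ks (by decide)
    exact ⟨rfl, rfl, rfl, rfl⟩
  · intro p q r kp kq kr H
    obtain rfl := kp (by decide)
    obtain rfl := kq (by decide)
    obtain rfl := kr (by decide)
    exact ⟨rfl, rfl, rfl⟩

theorem sum_J12 {Pr : Par} {n a b v2 v1 x2 x1 : ℕ} (h : Hts Pr n a b v2 v1 x2 x1) :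
    3 * Pr.D0 ≤ ∑ g ∈ ({.z1, .zl, .w1, .wl} : Finset Gp), Pr.ht g := by
  rw [Finset.sum_insert (by decide), Finset.sum_insert (by decide), Finset.sum_insert (by decide), Finset.sum_singleton]
  have := h.i1
  have := h.hz1
  have := h.hzl
  have := h.hw1
  have := h.hwl
  omega

theorem ind_J13 (x : ℚ) {Λ : Submodule ℚ V8} (he0 : (![1, 0, 0, 0, 0, 0, 0, 0] : V8) ∈ Λ) (hm2 : (![0, 1, 2, 0, 0, 0, 0, 0] : V8) ∈ Λ) (he6 : (![0, 0, 0, 0, 0, 0, 1, 0] : V8) ∈ Λ) :
    Ind x Λ {.z1, .zl, .z8, .w1, .wl, .wy} := by
  constructor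
  · intro p q r s kp kq kr ks H
    obtain rfl := ks (by decide)
    have hp0 : p = 0 := by
      have k := H _ he0
      simp only [Matrix.cons_val] at k
      linarith
    subst hp0
    have hq0 : q = 0 := by
      have k := H _ hm2
      simp only [Matrix.cons_val] at k
      linarith
    subst hq0
    have hr0 : r = 0 := by
      have k := H _ he6
      simp only [Matrix.cons_val] at k
      linarith
    subst hr0
    exact ⟨rfl, rfl, rfl, rfl⟩
  · intro p q r s t u kp kq kr ks kt ku H
    obtain rfl := ks (by decide)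
    obtain rfl := kt (by decide)
    obtain rfl := ku (by decide)
    have hp0 : p = 0 := by
      have k := H _ he0
      simp only [Matrix.cons_val] at k
      linarith
    subst hp0
    have hq0 : q = 0 := by
      have k := H _ hm2
      simp only [Matrix.cons_val] at k
      linarith
    subst hq0
    have hr0 : r = 0 := by
      have k := H _ he6
      simp only [Matrix.cons_val] at k
      linarith
    subst hr0
    exact ⟨rfl, rfl, rfl, rfl, rfl, rfl⟩
  · intro p q r s kp kq kr ks H
    obtain rfl := kp (by decide)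
    obtain rfl := kq (by decide)
    obtain rfl := kr (by decide)
    obtain rfl := ks (by decide)
    exact ⟨rfl, rfl, rfl, rfl⟩
  · intro p q r kp kq kr H
    obtain rfl := kp (by decide)
    obtain rfl := kq (by decide)
    obtain rfl := kr (by decide)
    exact ⟨rfl, rfl, rfl⟩

theorem sum_J13 {Pr : Par} {n a b v2 v1 x2 x1 : ℕ} (h : Hts Pr n a b v2 v1 x2 x1) :
    5 * Pr.D0 ≤ ∑ g ∈ ({.z1, .zl, .z8, .w1, .wl, .wy} : Finset Gp), Pr.ht g := by
  rw [Finset.sum_insert (by decide), Finset.sum_insert (by decide), Finset.sum_insert (by decide), Finset.sum_insert (by decide), Finset.sum_insert (by decide), Finset.sum_singleton]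
  have := h.i1
  have := h.hz1
  have := h.hzl
  have := h.hz8
  have := h.hw1
  have := h.hwl
  have := h.hwy
  omega

theorem ind_J14 (x : ℚ) {Λ : Submodule ℚ V8} (he0 : (![1, 0, 0, 0, 0, 0, 0, 0] : V8) ∈ Λ) (he1 : (![0, 1, 0, 0, 0, 0, 0, 0] : V8) ∈ Λ) :
    Ind x Λ {.z1, .zl, .w1, .wl} := by
  constructor
  · intro p q r s kp kq kr ks H
    obtain rfl := kr (by decide)
    obtain rfl := ks (by decide)
    have hp0 : p = 0 := by
      have k := H _ he0
      simp only [Matrix.cons_val] at k
      linarith
    subst hp0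
    have hq0 : q = 0 := by
      have k := H _ he1
      simp only [Matrix.cons_val] at k
      linarith
    subst hq0
    exact ⟨rfl, rfl, rfl, rfl⟩
  · intro p q r s t u kp kq kr ks kt ku H
    obtain rfl := kr (by decide)
    obtain rfl := ks (by decide)
    obtain rfl := kt (by decide)
    obtain rfl := ku (by decide)
    have hp0 : p = 0 := by
      have k := H _ he0
      simp only [Matrix.cons_val] at k
      linarith
    subst hp0
    have hq0 : q = 0 := by
      have k := H _ he1
      simp only [Matrix.cons_val] at k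
      linarith
    subst hq0
    exact ⟨rfl, rfl, rfl, rfl, rfl, rfl⟩
  · intro p q r s kp kq kr ks H
    obtain rfl := kp (by decide)
    obtain rfl := kq (by decide)
    obtain rfl := kr (by decide)
    obtain rfl := ks (by decide)
    exact ⟨rfl, rfl, rfl, rfl⟩
  · intro p q r kp kq kr H
    obtain rfl := kp (by decide)
    obtain rfl := kq (by decide)
    obtain rfl := kr (by decide)
    exact ⟨rfl, rfl, rfl⟩

theorem sum_J14 {Pr : Par} {n a b v2 v1 x2 x1 : ℕ} (h : Hts Pr n a b v2 v1 x2 x1) :
    4 * Pr.D0 ≤ ∑ g ∈ ({.z1, .zl, .w1, .wl} : Finset Gp), Pr.ht g := by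
  rw [Finset.sum_insert (by decide), Finset.sum_insert (by decide), Finset.sum_insert (by decide), Finset.sum_singleton]
  have := h.i1
  have := h.hz1
  have := h.hzl
  have := h.hw1
  have := h.hwl
  omega

theorem ind_J15 (x : ℚ) {Λ : Submodule ℚ V8} (he0 : (![1, 0, 0, 0, 0, 0, 0, 0] : V8) ∈ Λ) (he1 : (![0, 1, 0, 0, 0, 0, 0, 0] : V8) ∈ Λ) (he6 : (![0, 0, 0, 0, 0, 0, 1, 0] : V8) ∈ Λ) :
    Ind x Λ {.z1, .zl, .z8, .w1, .wl, .wy} := by
  constructor
  · intro p q r s kp kq kr ks H
    obtain rfl := ks (by decide)
    have hp0 : p = 0 := by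
      have k := H _ he0
      simp only [Matrix.cons_val] at k
      linarith
    subst hp0
    have hq0 : q = 0 := by
      have k := H _ he1
      simp only [Matrix.cons_val] at k
      linarith
    subst hq0
    have hr0 : r = 0 := by
      have k := H _ he6
      simp only [Matrix.cons_val] at k
      linarith
    subst hr0
    exact ⟨rfl, rfl, rfl, rfl⟩
  · intro p q r s t u kp kq kr ks kt ku H
    obtain rfl := ks (by decide)
    obtain rfl := kt (by decide)
    obtain rfl := ku (by decide)
    have hp0 : p = 0 := by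
      have k := H _ he0
      simp only [Matrix.cons_val] at k
      linarith
    subst hp0
    have hq0 : q = 0 := by
      have k := H _ he1
      simp only [Matrix.cons_val] at k
      linarith
    subst hq0
    have hr0 : r = 0 := by
      have k := H _ he6
      simp only [Matrix.cons_val] at k
      linarith
    subst hr0
    exact ⟨rfl, rfl, rfl, rfl, rfl, rfl⟩
  · intro p q r s kp kq kr ks H
    obtain rfl := kp (by decide)
    obtain rfl := kq (by decide)
    obtain rfl := kr (by decide)
    obtain rfl := ks (by decide)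
    exact ⟨rfl, rfl, rfl, rfl⟩
  · intro p q r kp kq kr H
    obtain rfl := kp (by decide)
    obtain rfl := kq (by decide)
    obtain rfl := kr (by decide)
    exact ⟨rfl, rfl, rfl⟩

theorem sum_J15 {Pr : Par} {n a b v2 v1 x2 x1 : ℕ} (h : Hts Pr n a b v2 v1 x2 x1) :
    5 * Pr.D0 ≤ ∑ g ∈ ({.z1, .zl, .z8, .w1, .wl, .wy} : Finset Gp), Pr.ht g := by
  rw [Finset.sum_insert (by decide), Finset.sum_insert (by decide), Finset.sum_insert (by decide), Finset.sum_insert (by decide), Finset.sum_insert (by decide), Finset.sum_singleton]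
  have := h.i1
  have := h.hz1
  have := h.hzl
  have := h.hz8
  have := h.hw1
  have := h.hwl
  have := h.hwy
  omega

theorem ind_J17 (x : ℚ) {Λ : Submodule ℚ V8} (he0 : (![1, 0, 0, 0, 0, 0, 0, 0] : V8) ∈ Λ) (he1 : (![0, 1, 0, 0, 0, 0, 0, 0] : V8) ∈ Λ) (he2 : (![0, 0, 1, 0, 0, 0, 0, 0] : V8) ∈ Λ) (hD : (![0, 0, 0, 1, -1, 0, 0, 0] : V8) ∈ Λ) (he5 : (![0, 0, 0, 0, 0, 1, 0, 0] : V8) ∈ Λ) :
    Ind x Λ {.z1, .zl, .zab, .w1, .wl, .wab, .wf7, .v2, .vl, .vb, .x2, .xl, .x1} := by
  constructor
  · intro p q r s kp kq kr ks H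
    obtain rfl := kr (by decide)
    have hp0 : p = 0 := by
      have k := H _ he0
      simp only [Matrix.cons_val] at k
      linarith
    subst hp0
    have hq0 : q = 0 := by
      have k := H _ he1
      simp only [Matrix.cons_val] at k
      linarith
    subst hq0
    have hs0 : s = 0 := by
      have k := H _ hD
      simp only [Matrix.cons_val] at k
      linarith
    subst hs0
    exact ⟨rfl, rfl, rfl, rfl⟩
  · intro p q r s t u kp kq kr ks kt ku H
    obtain rfl := kr (by decide)
    obtain rfl := ks (by decide)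
    have hp0 : p = 0 := by
      have k := H _ he0
      simp only [Matrix.cons_val] at k
      linarith
    subst hp0
    have hq0 : q = 0 := by
      have k := H _ he1
      simp only [Matrix.cons_val] at k
      linarith
    subst hq0
    have ht0 : t = 0 := by
      have k := H _ hD
      simp only [Matrix.cons_val] at k
      linarith
    subst ht0
    have hu0 : u = 0 := by
      have k := H _ he5
      simp only [Matrix.cons_val] at k
      linarith
    subst hu0
    exact ⟨rfl, rfl, rfl, rfl, rfl, rfl⟩
  · intro p q r s kp kq kr ks H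
    obtain rfl := kr (by decide)
    have hq0 : q = 0 := by
      have k := H _ hD
      simp only [Matrix.cons_val] at k
      linarith
    subst hq0
    have hp0 : p = 0 := by
      have k := H _ he5
      simp only [Matrix.cons_val] at k
      linarith
    subst hp0
    have hs0 : s = 0 := by
      have k := H _ he2
      simp only [Matrix.cons_val] at k
      linarith
    subst hs0
    exact ⟨rfl, rfl, rfl, rfl⟩
  · intro p q r kp kq kr H
    have hq0 : q = 0 := by
      have k := H _ hD
      simp only [Matrix.cons_val] at k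
      linarith
    subst hq0
    have hp0 : p = 0 := by
      have k := H _ he5
      simp only [Matrix.cons_val] at k
      linarith
    subst hp0
    have hr0 : r = 0 := by
      have k := H _ he2
      simp only [Matrix.cons_val] at k
      linarith
    subst hr0
    exact ⟨rfl, rfl, rfl⟩

theorem sum_J17 {Pr : Par} {n a b v2 v1 x2 x1 : ℕ} (h : Hts Pr n a b v2 v1 x2 x1) :
    5 * Pr.D0 ≤ ∑ g ∈ ({.z1, .zl, .zab, .w1, .wl, .wab, .wf7, .v2, .vl, .vb, .x2, .xl, .x1} : Finset Gp), Pr.ht g := by
  rw [Finset.sum_insert (by decide), Finset.sum_insert (by decide), Finset.sum_insert (by decide), Finset.sum_insert (by decide), Finset.sum_insert (by decide), Finset.sum_insert (by decide), Finset.sum_insert (by decide), Finset.sum_insert (by decide), Finset.sum_insert (by decide), Finset.sum_insert (by decide), Finset.sum_insert (by decide), Finset.sum_insert (by decide), Finset.sum_singleton]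
  have := h.i1
  have := h.hz1
  have := h.hzl
  have := h.hzab
  have := h.hw1
  have := h.hwl
  have := h.hwab
  have := h.hwf7
  have := h.hv2
  have := h.hvl
  have := h.hvb
  have := h.hx2
  have := h.hxl
  have := h.hx1
  have := h.i5c
  omega

theorem ind_J16 (x : ℚ) {Λ : Submodule ℚ V8} (he0 : (![1, 0, 0, 0, 0, 0, 0, 0] : V8) ∈ Λ)
    (he1 : (![0, 1, 0, 0, 0, 0, 0, 0] : V8) ∈ Λ) {v : V8} (hv : v ∈ Λ) (h6 : v 6 = 0) (h7 : v 7 = 0)
    (h : v 3 + v 4 ≠ 0) : Ind x Λ {.z1, .zl, .w1, .wl, .wy} := by
  constructor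
  · intro p q r s kp kq kr ks H
    obtain rfl := kr (by decide)
    obtain rfl := ks (by decide)
    have hp0 : p = 0 := by
      have k := H _ he0
      simp only [Matrix.cons_val] at k
      linarith
    subst hp0
    have hq0 : q = 0 := by
      have k := H _ he1
      simp only [Matrix.cons_val] at k
      linarith
    subst hq0
    exact ⟨rfl, rfl, rfl, rfl⟩
  · intro p q r s t u kp kq kr ks kt ku H
    obtain rfl := ks (by decide)
    obtain rfl := kt (by decide)
    obtain rfl := ku (by decide)
    have hp0 : p = 0 := by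
      have k := H _ he0
      simp only [Matrix.cons_val] at k
      linarith
    subst hp0
    have hq0 : q = 0 := by
      have k := H _ he1
      simp only [Matrix.cons_val] at k
      linarith
    subst hq0
    have hr0 : r = 0 := by
      have k := H _ hv
      rw [h6, h7] at k
      have k' : r * (v 3 + v 4) = 0 := by linarith
      exact (mul_eq_zero.1 k').resolve_right h
    subst hr0
    exact ⟨rfl, rfl, rfl, rfl, rfl, rfl⟩
  · intro p q r s kp kq kr ks H
    exact ⟨kp (by decide), kq (by decide), kr (by decide), ks (by decide)⟩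
  · intro p q r kp kq kr H
    exact ⟨kp (by decide), kq (by decide), kr (by decide)⟩

theorem sum_J16 {Pr : Par} {n a b v2 v1 x2 x1 : ℕ} (h : Hts Pr n a b v2 v1 x2 x1) :
    5 * Pr.D0 ≤ ∑ g ∈ ({.z1, .zl, .w1, .wl, .wy} : Finset Gp), Pr.ht g := by
  rw [Finset.sum_insert (by decide), Finset.sum_insert (by decide), Finset.sum_insert (by decide), Finset.sum_insert (by decide), Finset.sum_singleton]
  have := h.i1
  have := h.hz1
  have := h.hzl
  have := h.hw1
  have := h.hwl
  have := h.hwy
  omega

end Vale.Agent.P030.H605
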