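import Vale.Agent.P030.H605.TableA

/-!
# P030, NV: the finite table, dimension at most `5` : the case distinction
-/

namespace Vale.Agent.P030.H605

open Vale.Agent.P030.T Vale.Agent.P030.H782 Module

/-- a bound for the dimension: the coordinates `s` are injective on `Λ` -/
theorem fin_le {k : ℕ} (s : Fin k → Fin 8) (Λ : Submodule ℚ V8)
    (h : ∀ v ∈ Λ, (∀ i, v (s i) = 0) → v = 0) : finrank ℚ Λ ≤ k := by
  have h1 : Function.Injective ((LinearMap.funLeft ℚ ℚ s).comp Λ.subtype) := by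
    rw [← LinearMap.ker_eq_bot, LinearMap.ker_eq_bot']
    intro v hv
    exact Subtype.ext (h v v.2 (fun i => congrFun hv i))
  have := LinearMap.finrank_le_finrank_of_injective h1
  simpa using this

theorem ext8 {v : V8} (h0 : v 0 = 0) (h1 : v 1 = 0) (h2 : v 2 = 0) (h3 : v 3 = 0) (h4 : v 4 = 0)
    (h5 : v 5 = 0) (h6 : v 6 = 0) (h7 : v 7 = 0) : v = 0 := by
  ext i
  fin_cases i <;> assumption

theorem fin_good {Pr : Par} {Λ : Submodule ℚ V8} {x : ℚ} {J : Finset Gp} {k : ℕ}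
    (hk : finrank ℚ Λ ≤ k) (hi : Ind x Λ J) (hs : k * Pr.D0 ≤ ∑ g ∈ J, Pr.ht g) (hc : k ≤ J.card) :
    ∃ J : Finset Gp, Ind x Λ J ∧ finrank ℚ Λ * Pr.D0 ≤ ∑ g ∈ J, Pr.ht g ∧
      finrank ℚ Λ ≤ J.card :=
  ⟨J, hi, (Nat.mul_le_mul_right _ hk).trans hs, hk.trans hc⟩

theorem single0 : (Pi.single 0 1 : V8) = ![1, 0, 0, 0, 0, 0, 0, 0] := by
  ext i
  fin_cases i <;> simp

theorem single6 : (Pi.single 6 1 : V8) = ![0, 0, 0, 0, 0, 0, 1, 0] := by
  ext i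
  fin_cases i <;> simp [Pi.single_apply]

theorem single7 : (Pi.single 7 1 : V8) = ![0, 0, 0, 0, 0, 0, 0, 1] := by
  ext i
  fin_cases i <;> simp [Pi.single_apply]

/-- linear combinations of members in coordinates -/
theorem comb {Λ : Submodule ℚ V8} {v w z : V8} {a b : ℚ} (hv : v ∈ Λ) (hw : w ∈ Λ)
    (h : ∀ i, z i = a * v i + b * w i) : z ∈ Λ := by
  have : z = a • v + b • w := by
    ext i
    simp [h i]
  rw [this]
  exact Λ.add_mem (Λ.smul_mem _ hv) (Λ.smul_mem _ hw)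

theorem z2 {Λ : Submodule ℚ V8} (h2 : (![0, 0, 1, 0, 0, 0, 0, 0] : V8) ∉ Λ) {β : ℚ}
    (h : (![0, 0, β, 0, 0, 0, 0, 0] : V8) ∈ Λ) : β = 0 := by
  by_contra hb
  apply h2
  refine comb h h (a := β⁻¹) (b := 0) ?_
  intro i
  fin_cases i <;> simp [hb]

theorem z1 {Λ : Submodule ℚ V8} (h1 : ∀ y, (![0, 1, y, 0, 0, 0, 0, 0] : V8) ∉ Λ) {α β : ℚ}
    (h : (![0, α, β, 0, 0, 0, 0, 0] : V8) ∈ Λ) : α = 0 := by
  by_contra hb
  apply h1 (α⁻¹ * β)
  refine comb h h (a := α⁻¹) (b := 0) ?_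
  intro i
  fin_cases i <;> simp [hb]

theorem z12 {Λ : Submodule ℚ V8} (h2 : (![0, 0, 1, 0, 0, 0, 0, 0] : V8) ∉ Λ) {y α β : ℚ}
    (hm : (![0, 1, y, 0, 0, 0, 0, 0] : V8) ∈ Λ)
    (h : (![0, α, β, 0, 0, 0, 0, 0] : V8) ∈ Λ) : β = y * α := by
  have : (![0, 0, β - y * α, 0, 0, 0, 0, 0] : V8) ∈ Λ := by
    refine comb h hm (a := 1) (b := - α) ?_
    intro i
    fin_cases i <;> simp
    ring
  linarith [z2 h2 this]

/-- the data of a stable space containing `e_0`, in reduced form -/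
structure Red (Λ : Submodule ℚ V8) : Prop where
  he0 : (![1, 0, 0, 0, 0, 0, 0, 0] : V8) ∈ Λ
  r0 : ∀ v ∈ Λ, (![0, 0, v 3, 0, 0, 0, 0, 0] : V8) ∈ Λ
  rm : ∀ v ∈ Λ, (![0, v 4, v 4, 0, 0, 0, 0, 0] : V8) ∈ Λ
  r1 : ∀ v ∈ Λ, (![0, (v 4 + v 5) / 2, v 5, 0, 0, 0, 0, 0] : V8) ∈ Λ
  red : ∀ v ∈ Λ, (![0, v 1, v 2, v 3, v 4, v 5, 0, 0] : V8) ∈ Λ
  f : (∀ v ∈ Λ, v 6 = 0 ∧ v 7 = 0) ∨
    ((![0, 0, 0, 0, 0, 0, 1, 0] : V8) ∈ Λ ∧ (![0, 0, 0, 0, 0, 0, 0, 1] : V8) ∈ Λ)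

theorem red_of {Λ : Submodule ℚ V8} (hS : Sta Λ) (he : (Pi.single 0 1 : V8) ∈ Λ) : Red Λ := by
  rw [single0] at he
  have hf : (∀ v ∈ Λ, v 6 = 0 ∧ v 7 = 0) ∨
      ((![0, 0, 0, 0, 0, 0, 1, 0] : V8) ∈ Λ ∧ (![0, 0, 0, 0, 0, 0, 0, 1] : V8) ∈ Λ) := by
    by_cases hF : ∃ v ∈ Λ, v 6 ≠ 0 ∨ v 7 ≠ 0
    · right
      obtain ⟨v, hv, h⟩ := hF
      obtain ⟨a, b, -⟩ := hS.ft v hv h
      rw [single6] at a
      rw [single7] at b
      exact ⟨a, b⟩
    · left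
      intro v hv
      by_contra hc
      apply hF
      refine ⟨v, hv, ?_⟩
      by_contra hd
      push Not at hd
      exact hc hd
  refine ⟨he, hS.r0, hS.rm, ?_, ?_, hf⟩
  · intro v hv
    refine comb (hS.r1 v hv) he (a := 1) (b := - v 2) ?_
    intro i
    fin_cases i <;> simp
  · intro v hv
    rcases hf with h | ⟨h6, h7⟩
    · refine comb hv he (a := 1) (b := - v 0) ?_
      intro i
      fin_cases i <;> simp [(h v hv).1, (h v hv).2]
    · have k1 : (![0, v 1, v 2, v 3, v 4, v 5, v 6, v 7] : V8) ∈ Λ := by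
        refine comb hv he (a := 1) (b := - v 0) ?_
        intro i
        fin_cases i <;> simp
      have k2 : (![0, v 1, v 2, v 3, v 4, v 5, 0, v 7] : V8) ∈ Λ := by
        refine comb k1 h6 (a := 1) (b := - v 6) ?_
        intro i
        fin_cases i <;> simp
      refine comb k2 h7 (a := 1) (b := - v 7) ?_
      intro i
      fin_cases i <;> simp

/-- the conclusion of the table for `Λ` -/
def Goal (Pr : Par) (x : ℚ) (Λ : Submodule ℚ V8) : Prop :=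
  ∃ J : Finset Gp, Ind x Λ J ∧ finrank ℚ Λ * Pr.D0 ≤ ∑ g ∈ J, Pr.ht g ∧ finrank ℚ Λ ≤ J.card

variable {Pr : Par} {n a b v2 v1 x2 x1 : ℕ}

/-- no `(0, α, β)` in `Λ` -/
theorem case0 (h : Hts Pr n a b v2 v1 x2 x1) (x : ℚ) {Λ : Submodule ℚ V8} (hR : Red Λ)
    (h2 : (![0, 0, 1, 0, 0, 0, 0, 0] : V8) ∉ Λ)
    (h1 : ∀ y, (![0, 1, y, 0, 0, 0, 0, 0] : V8) ∉ Λ) : Goal Pr x Λ := by
  have q3 : ∀ v ∈ Λ, v 3 = 0 := fun v hv => z2 h2 (hR.r0 v hv)
  have q4 : ∀ v ∈ Λ, v 4 = 0 := fun v hv => z1 h1 (hR.rm v hv)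
  have q5 : ∀ v ∈ Λ, v 5 = 0 := fun v hv => by
    have := z1 h1 (hR.r1 v hv)
    have := q4 v hv
    linarith
  have q1 : ∀ v ∈ Λ, v 1 = 0 := fun v hv => by
    have := hR.red v hv
    rw [q3 v hv, q4 v hv, q5 v hv] at this
    exact z1 h1 this
  have q2 : ∀ v ∈ Λ, v 2 = 0 := fun v hv => by
    have := hR.red v hv
    rw [q3 v hv, q4 v hv, q5 v hv, q1 v hv] at this
    exact z2 h2 this
  rcases hR.f with hf | ⟨h6, h7⟩
  · refine fin_good (k := 1) (fin_le ![0] Λ ?_) (ind_J2 x hR.he0) (sum_J2 h |> fun t => by omega) (by decide)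
    intro v hv k
    exact ext8 (k 0) (q1 v hv) (q2 v hv) (q3 v hv) (q4 v hv) (q5 v hv) (hf v hv).1 (hf v hv).2
  · refine fin_good (k := 3) (fin_le ![0, 6, 7] Λ ?_) (ind_J3 x hR.he0 h6) (sum_J3 h) (by decide)
    intro v hv k
    exact ext8 (k 0) (q1 v hv) (q2 v hv) (q3 v hv) (q4 v hv) (q5 v hv) (k 1) (k 2)

/-- only `(0, 0, β)` in `Λ` -/
theorem case1a (h : Hts Pr n a b v2 v1 x2 x1) (x : ℚ) {Λ : Submodule ℚ V8} (hR : Red Λ)
    (he2 : (![0, 0, 1, 0, 0, 0, 0, 0] : V8) ∈ Λ)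
    (h1 : ∀ y, (![0, 1, y, 0, 0, 0, 0, 0] : V8) ∉ Λ) : Goal Pr x Λ := by
  have q4 : ∀ v ∈ Λ, v 4 = 0 := fun v hv => z1 h1 (hR.rm v hv)
  have q5 : ∀ v ∈ Λ, v 5 = 0 := fun v hv => by
    have := z1 h1 (hR.r1 v hv)
    have := q4 v hv
    linarith
  have q1 : ∀ v ∈ Λ, v 3 = 0 → v 1 = 0 := fun v hv h3 => by
    have := hR.red v hv
    rw [h3, q4 v hv, q5 v hv] at this
    exact z1 h1 this
  by_cases h3 : ∃ v ∈ Λ, v 3 ≠ 0
  · obtain ⟨w, hw, hw3⟩ := h3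
    have hq : (![0, w 1 / w 3, 0, 1, 0, 0, 0, 0] : V8) ∈ Λ := by
      refine comb (hR.red w hw) he2 (a := 1 / w 3) (b := - (w 2 / w 3)) ?_
      intro i
      fin_cases i <;> simp [q4 w hw, q5 w hw, hw3] <;> field_simp <;> ring
    rcases hR.f with hf | ⟨h6, h7⟩
    · refine fin_good (k := 3) (fin_le ![0, 2, 3] Λ ?_) (ind_J6 x hR.he0 he2 hq) (sum_J6 h) (by decide)
      intro v hv k
      exact ext8 (k 0) (q1 v hv (k 2)) (k 1) (k 2) (q4 v hv) (q5 v hv) (hf v hv).1 (hf v hv).2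
    · refine fin_good (k := 5) (fin_le ![0, 2, 3, 6, 7] Λ ?_) (ind_J7 x hR.he0 he2 hq h6) (sum_J7 h)
        (by decide)
      intro v hv k
      exact ext8 (k 0) (q1 v hv (k 2)) (k 1) (k 2) (q4 v hv) (q5 v hv) (k 3) (k 4)
  · have q3 : ∀ v ∈ Λ, v 3 = 0 := fun v hv => by
      by_contra hc
      exact h3 ⟨v, hv, hc⟩
    rcases hR.f with hf | ⟨h6, h7⟩
    · refine fin_good (k := 2) (fin_le ![0, 2] Λ ?_) (ind_J4 x hR.he0 he2) (sum_J4 h) (by decide)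
      intro v hv k
      exact ext8 (k 0) (q1 v hv (q3 v hv)) (k 1) (q3 v hv) (q4 v hv) (q5 v hv) (hf v hv).1 (hf v hv).2
    · refine fin_good (k := 4) (fin_le ![0, 2, 6, 7] Λ ?_) (ind_J5 x hR.he0 he2 h6) (sum_J5 h)
        (by decide)
      intro v hv k
      exact ext8 (k 0) (q1 v hv (q3 v hv)) (k 1) (q3 v hv) (q4 v hv) (q5 v hv) (k 2) (k 3)

/-- exactly the multiples of `(0, 1, y)` in `Λ` -/
theorem case1b (h : Hts Pr n a b v2 v1 x2 x1) (x : ℚ) {Λ : Submodule ℚ V8} (hR : Red Λ)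
    (h2 : (![0, 0, 1, 0, 0, 0, 0, 0] : V8) ∉ Λ) {y : ℚ}
    (hm : (![0, 1, y, 0, 0, 0, 0, 0] : V8) ∈ Λ) : Goal Pr x Λ := by
  have q3 : ∀ v ∈ Λ, v 3 = 0 := fun v hv => z2 h2 (hR.r0 v hv)
  have q4 : ∀ v ∈ Λ, v 4 = y * v 4 := fun v hv => z12 h2 hm (hR.rm v hv)
  have q5 : ∀ v ∈ Λ, v 5 = y * ((v 4 + v 5) / 2) := fun v hv => z12 h2 hm (hR.r1 v hv)
  have q2 : ∀ v ∈ Λ, v 1 = 0 → v 4 = 0 → v 5 = 0 → v 2 = 0 := fun v hv k1 k4 k5 => by
    have := hR.red v hv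
    rw [k1, q3 v hv, k4, k5] at this
    have := z12 h2 hm this
    linarith
  by_cases h5 : ∃ v ∈ Λ, v 5 ≠ 0
  · obtain ⟨w, hw, hw5⟩ := h5
    by_cases hy : y = 1
    · subst hy
      have q45 : ∀ v ∈ Λ, v 5 = 0 → v 4 = 0 := fun v hv k => by
        have := q5 v hv
        linarith
      have hw4 : w 4 = w 5 := by
        have := q5 w hw
        linarith
      have hq : (![0, 0, (w 2 - w 1) / w 5, 0, 1, 1, 0, 0] : V8) ∈ Λ := by
        refine comb (hR.red w hw) hm (a := 1 / w 5) (b := - (w 1 / w 5)) ?_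
        intro i
        fin_cases i <;> simp [q3 w hw, hw4, hw5] <;> field_simp <;> ring
      rcases hR.f with hf | ⟨h6, h7⟩
      · refine fin_good (k := 3) (fin_le ![0, 1, 5] Λ ?_) (ind_J10 x hR.he0 hm hq) (sum_J10 h)
          (by decide)
        intro v hv k
        have k4 := q45 v hv (k 2)
        exact ext8 (k 0) (k 1) (q2 v hv (k 1) k4 (k 2)) (q3 v hv) k4 (k 2) (hf v hv).1 (hf v hv).2
      · refine fin_good (k := 5) (fin_le ![0, 1, 5, 6, 7] Λ ?_) (ind_J11 x hR.he0 hm hq h6 h7)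
          (sum_J11 h) (by decide)
        intro v hv k
        have k4 := q45 v hv (k 2)
        exact ext8 (k 0) (k 1) (q2 v hv (k 1) k4 (k 2)) (q3 v hv) k4 (k 2) (k 3) (k 4)
    · have q40 : ∀ v ∈ Λ, v 4 = 0 := fun v hv => by
        have h1 := q4 v hv
        have h2 : (1 - y) * v 4 = 0 := by linarith
        exact (mul_eq_zero.1 h2).resolve_left (fun h => hy (by linarith))
      have hy2 : y = 2 := by
        have h1 := q5 w hw
        rw [q40 w hw] at h1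
        have h2 : (2 - y) * w 5 = 0 := by linarith
        have := (mul_eq_zero.1 h2).resolve_right hw5
        linarith
      subst hy2
      rcases hR.f with hf | ⟨h6, h7⟩
      · refine fin_good (k := 3) (fin_le ![0, 1, 5] Λ ?_) (ind_J12 x hR.he0 hm) (sum_J12 h)
          (by decide)
        intro v hv k
        have k4 := q40 v hv
        exact ext8 (k 0) (k 1) (q2 v hv (k 1) k4 (k 2)) (q3 v hv) k4 (k 2) (hf v hv).1 (hf v hv).2
      · refine fin_good (k := 5) (fin_le ![0, 1, 5, 6, 7] Λ ?_) (ind_J13 x hR.he0 hm h6)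
          (sum_J13 h) (by decide)
        intro v hv k
        have k4 := q40 v hv
        exact ext8 (k 0) (k 1) (q2 v hv (k 1) k4 (k 2)) (q3 v hv) k4 (k 2) (k 3) (k 4)
  · have q50 : ∀ v ∈ Λ, v 5 = 0 := fun v hv => by
      by_contra hc
      exact h5 ⟨v, hv, hc⟩
    have q40 : ∀ v ∈ Λ, v 4 = 0 := fun v hv => by
      have h1 := q4 v hv
      have h2 := q5 v hv
      rw [q50 v hv] at h2
      linarith
    rcases hR.f with hf | ⟨h6, h7⟩
    · refine fin_good (k := 2) (fin_le ![0, 1] Λ ?_) (ind_J8 x hR.he0 hm) (sum_J8 h) (by decide)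
      intro v hv k
      exact ext8 (k 0) (k 1) (q2 v hv (k 1) (q40 v hv) (q50 v hv)) (q3 v hv) (q40 v hv) (q50 v hv)
        (hf v hv).1 (hf v hv).2
    · refine fin_good (k := 4) (fin_le ![0, 1, 6, 7] Λ ?_) (ind_J9 x hR.he0 hm h6) (sum_J9 h)
        (by decide)
      intro v hv k
      exact ext8 (k 0) (k 1) (q2 v hv (k 1) (q40 v hv) (q50 v hv)) (q3 v hv) (q40 v hv) (q50 v hv)
        (k 2) (k 3)

/-- `e_1, e_2 ∈ Λ`, dimension at most `5` -/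
theorem case2 (h : Hts Pr n a b v2 v1 x2 x1) (x : ℚ) {Λ : Submodule ℚ V8} (hR : Red Λ)
    (he1 : (![0, 1, 0, 0, 0, 0, 0, 0] : V8) ∈ Λ) (he2 : (![0, 0, 1, 0, 0, 0, 0, 0] : V8) ∈ Λ)
    (hr : finrank ℚ Λ ≤ 5) : Goal Pr x Λ := by
  rcases hR.f with hf | ⟨h6, h7⟩
  swap
  · exact fin_good hr (ind_J15 x hR.he0 he1 h6) (sum_J15 h) (by decide)
  by_cases h4 : finrank ℚ Λ ≤ 4
  · exact fin_good h4 (ind_J14 x hR.he0 he1) (sum_J14 h) (by decide)
  by_cases hw : ∃ v ∈ Λ, v 3 + v 4 ≠ 0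
  · obtain ⟨v, hv, hv'⟩ := hw
    exact fin_good hr (ind_J16 x hR.he0 he1 hv (hf v hv).1 (hf v hv).2 hv') (sum_J16 h) (by decide)
  · have q34 : ∀ v ∈ Λ, v 3 + v 4 = 0 := fun v hv => by
      by_contra hc
      exact hw ⟨v, hv, hc⟩
    set W : Submodule ℚ V8 :=
      { carrier := {v | v 3 + v 4 = 0 ∧ v 6 = 0 ∧ v 7 = 0}
        add_mem' := by
          rintro v w ⟨h1, h2, h3⟩ ⟨k1, k2, k3⟩
          simp only [Set.mem_setOf_eq, Pi.add_apply]
          exact ⟨by linarith, by linarith, by linarith⟩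
        zero_mem' := by simp
        smul_mem' := by
          rintro c v ⟨h1, h2, h3⟩
          simp only [Set.mem_setOf_eq, Pi.smul_apply, smul_eq_mul]
          exact ⟨by linear_combination c * h1, by rw [h2, mul_zero], by rw [h3, mul_zero]⟩ } with hWdef
    have hle : Λ ≤ W := fun v hv => ⟨q34 v hv, hf v hv⟩
    have hW : finrank ℚ W ≤ 5 := by
      refine fin_le ![0, 1, 2, 3, 5] W ?_
      rintro v ⟨k1, k2, k3⟩ k
      have k3' : v 3 = 0 := k 3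
      exact ext8 (k 0) (k 1) (k 2) k3' (by linarith) (k 4) k2 k3
    have hEq : Λ = W := Submodule.eq_of_le_of_finrank_le hle (by omega)
    have hD : (![0, 0, 0, 1, -1, 0, 0, 0] : V8) ∈ Λ := by
      rw [hEq]
      refine ⟨?_, ?_, ?_⟩ <;> simp [Matrix.cons_val]
    have he5 : (![0, 0, 0, 0, 0, 1, 0, 0] : V8) ∈ Λ := by
      rw [hEq]
      refine ⟨?_, ?_, ?_⟩ <;> simp [Matrix.cons_val]
    exact fin_good hr (ind_J17 x hR.he0 he1 he2 hD he5) (sum_J17 h) (by decide)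

/-- the table in dimension at most `5` -/
theorem table_le5 (h : Hts Pr n a b v2 v1 x2 x1) (x : ℚ) {Λ : Submodule ℚ V8} (hS : Sta Λ)
    (hr : finrank ℚ Λ ≤ 5) : Goal Pr x Λ := by
  rcases hS.one with he0 | ⟨c, hc⟩
  · have hR := red_of hS he0
    by_cases he2 : (![0, 0, 1, 0, 0, 0, 0, 0] : V8) ∈ Λ
    · by_cases h1 : ∃ y, (![0, 1, y, 0, 0, 0, 0, 0] : V8) ∈ Λ
      · obtain ⟨y, hy⟩ := h1
        refine case2 h x hR ?_ he2 hr
        refine comb hy he2 (a := 1) (b := - y) ?_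
        intro i
        fin_cases i <;> simp
      · push Not at h1
        exact case1a h x hR he2 h1
    · by_cases h1 : ∃ y, (![0, 1, y, 0, 0, 0, 0, 0] : V8) ∈ Λ
      · obtain ⟨y, hy⟩ := h1
        exact case1b h x hR he2 hy
      · push Not at h1
        exact case0 h x hR he2 h1
  · have hl : (![c, 1, 0, 0, 0, 0, 0, 0] : V8) ∈ Λ := by
      rw [hc]
      exact Submodule.mem_span_singleton_self _
    refine fin_good (k := 1) ?_ (ind_J1 x hl) (sum_J1 h) (by decide)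
    have := finrank_span_le_card (R := ℚ) ({![c, 1, 0, 0, 0, 0, 0, 0]} : Set V8)
    rw [hc]
    simpa using this

end Vale.Agent.P030.H605
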