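import Vale.Agent.P030.H605.TableB

/-!
# P030, NV: the finite table, dimension at least `6`
-/

set_option linter.unusedVariables false

namespace Vale.Agent.P030.H605

open Vale.Agent.P030.T Vale.Agent.P030.H782 Module

theorem ind_J18 (x : ℚ) {Λ : Submodule ℚ V8} (he0 : (![1, 0, 0, 0, 0, 0, 0, 0] : V8) ∈ Λ) (he1 : (![0, 1, 0, 0, 0, 0, 0, 0] : V8) ∈ Λ) (he2 : (![0, 0, 1, 0, 0, 0, 0, 0] : V8) ∈ Λ) (he6 : (![0, 0, 0, 0, 0, 0, 1, 0] : V8) ∈ Λ) :
    Ind x Λ {.z1, .zl, .z8, .w1, .wl, .wy, .v8, .vb, .x1} := by
  constructor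
  · intro p q r s kp kq kr ks H
    obtain rfl := ks (by decide)
    have hp0 : p = 0 := by
      have k := H _ he0
      simp only [Matrix.cons_val] at k
      linarith
    subst hp0
    have hq0 : q = 0 := by
      have k := H _ he1
      simp only [Matrix.cons_val] at k
      linarith
    subst hq0
    have hr0 : r = 0 := by
      have k := H _ he6
      simp only [Matrix.cons_val] at k
      linarith
    subst hr0
    exact ⟨rfl, rfl, rfl, rfl⟩
  · intro p q r s t u kp kq kr ks kt ku H
    obtain rfl := ks (by decide)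
    obtain rfl := kt (by decide)
    obtain rfl := ku (by decide)
    have hp0 : p = 0 := by
      have k := H _ he0
      simp only [Matrix.cons_val] at k
      linarith
    subst hp0
    have hq0 : q = 0 := by
      have k := H _ he1
      simp only [Matrix.cons_val] at k
      linarith
    subst hq0
    have hr0 : r = 0 := by
      have k := H _ he6
      simp only [Matrix.cons_val] at k
      linarith
    subst hr0
    exact ⟨rfl, rfl, rfl, rfl, rfl, rfl⟩
  · intro p q r s kp kq kr ks H
    obtain rfl := kp (by decide)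
    obtain rfl := kq (by decide)
    have hr0 : r = 0 := by
      have k := H _ he6
      simp only [Matrix.cons_val] at k
      linarith
    subst hr0
    have hs0 : s = 0 := by
      have k := H _ he2
      simp only [Matrix.cons_val] at k
      linarith
    subst hs0
    exact ⟨rfl, rfl, rfl, rfl⟩
  · intro p q r kp kq kr H
    obtain rfl := kp (by decide)
    obtain rfl := kq (by decide)
    have hr0 : r = 0 := by
      have k := H _ he2
      simp only [Matrix.cons_val] at k
      linarith
    subst hr0
    exact ⟨rfl, rfl, rfl⟩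

theorem sum_J18 {Pr : Par} {n a b v2 v1 x2 x1 : ℕ} (h : Hts Pr n a b v2 v1 x2 x1) :
    6 * Pr.D0 ≤ ∑ g ∈ ({.z1, .zl, .z8, .w1, .wl, .wy, .v8, .vb, .x1} : Finset Gp), Pr.ht g := by
  rw [Finset.sum_insert (by decide), Finset.sum_insert (by decide), Finset.sum_insert (by decide), Finset.sum_insert (by decide), Finset.sum_insert (by decide), Finset.sum_insert (by decide), Finset.sum_insert (by decide), Finset.sum_insert (by decide), Finset.sum_singleton]
  have := h.i1
  have := h.hz1
  have := h.hzl
  have := h.hz8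
  have := h.hw1
  have := h.hwl
  have := h.hwy
  have := h.hv8
  have := h.hvb
  have := h.hx1
  have := h.i6a
  omega

theorem ind_J19 (x : ℚ) {Λ : Submodule ℚ V8} (he0 : (![1, 0, 0, 0, 0, 0, 0, 0] : V8) ∈ Λ) (he1 : (![0, 1, 0, 0, 0, 0, 0, 0] : V8) ∈ Λ) (he2 : (![0, 0, 1, 0, 0, 0, 0, 0] : V8) ∈ Λ) (he3 : (![0, 0, 0, 1, 0, 0, 0, 0] : V8) ∈ Λ) (he4 : (![0, 0, 0, 0, 1, 0, 0, 0] : V8) ∈ Λ) (he5 : (![0, 0, 0, 0, 0, 1, 0, 0] : V8) ∈ Λ) :
    Ind x Λ {.z1, .zl, .zab, .w1, .wl, .wy, .wab, .wf7, .v2, .vl, .vb, .x2, .xl, .x1} := by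
  constructor
  · intro p q r s kp kq kr ks H
    obtain rfl := kr (by decide)
    have hp0 : p = 0 := by
      have k := H _ he0
      simp only [Matrix.cons_val] at k
      linarith
    subst hp0
    have hq0 : q = 0 := by
      have k := H _ he1
      simp only [Matrix.cons_val] at k
      linarith
    subst hq0
    have hs0 : s = 0 := by
      have k := H _ he3
      simp only [Matrix.cons_val] at k
      linarith
    subst hs0
    exact ⟨rfl, rfl, rfl, rfl⟩
  · intro p q r s t u kp kq kr ks kt ku H
    obtain rfl := ks (by decide)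
    have hp0 : p = 0 := by
      have k := H _ he0
      simp only [Matrix.cons_val] at k
      linarith
    subst hp0
    have hq0 : q = 0 := by
      have k := H _ he1
      simp only [Matrix.cons_val] at k
      linarith
    subst hq0
    have hr0 : r = 0 := by
      have k := H _ he4
      simp only [Matrix.cons_val] at k
      linarith
    subst hr0
    have ht0 : t = 0 := by
      have k := H _ he3
      simp only [Matrix.cons_val] at k
      linarith
    subst ht0
    have hu0 : u = 0 := by
      have k := H _ he5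
      simp only [Matrix.cons_val] at k
      linarith
    subst hu0
    exact ⟨rfl, rfl, rfl, rfl, rfl, rfl⟩
  · intro p q r s kp kq kr ks H
    obtain rfl := kr (by decide)
    have hp0 : p = 0 := by
      have k := H _ he3
      simp only [Matrix.cons_val] at k
      linarith
    subst hp0
    have hq0 : q = 0 := by
      have k := H _ he4
      simp only [Matrix.cons_val] at k
      linarith
    subst hq0
    have hs0 : s = 0 := by
      have k := H _ he2
      simp only [Matrix.cons_val] at k
      linarith
    subst hs0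
    exact ⟨rfl, rfl, rfl, rfl⟩
  · intro p q r kp kq kr H
    have hq0 : q = 0 := by
      have k := H _ he4
      simp only [Matrix.cons_val] at k
      linarith
    subst hq0
    have hp0 : p = 0 := by
      have k := H _ he5
      simp only [Matrix.cons_val] at k
      linarith
    subst hp0
    have hr0 : r = 0 := by
      have k := H _ he2
      simp only [Matrix.cons_val] at k
      linarith
    subst hr0
    exact ⟨rfl, rfl, rfl⟩

theorem sum_J19 {Pr : Par} {n a b v2 v1 x2 x1 : ℕ} (h : Hts Pr n a b v2 v1 x2 x1) :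
    6 * Pr.D0 ≤ ∑ g ∈ ({.z1, .zl, .zab, .w1, .wl, .wy, .wab, .wf7, .v2, .vl, .vb, .x2, .xl, .x1} : Finset Gp), Pr.ht g := by
  rw [Finset.sum_insert (by decide), Finset.sum_insert (by decide), Finset.sum_insert (by decide), Finset.sum_insert (by decide), Finset.sum_insert (by decide), Finset.sum_insert (by decide), Finset.sum_insert (by decide), Finset.sum_insert (by decide), Finset.sum_insert (by decide), Finset.sum_insert (by decide), Finset.sum_insert (by decide), Finset.sum_insert (by decide), Finset.sum_insert (by decide), Finset.sum_singleton]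
  have := h.i1
  have := h.hz1
  have := h.hzl
  have := h.hzab
  have := h.hw1
  have := h.hwl
  have := h.hwy
  have := h.hwab
  have := h.hwf7
  have := h.hv2
  have := h.hvl
  have := h.hvb
  have := h.hx2
  have := h.hxl
  have := h.hx1
  have := h.i6b
  omega

theorem ind_J20 (x : ℚ) {Λ : Submodule ℚ V8} (he0 : (![1, 0, 0, 0, 0, 0, 0, 0] : V8) ∈ Λ) (he1 : (![0, 1, 0, 0, 0, 0, 0, 0] : V8) ∈ Λ) (he2 : (![0, 0, 1, 0, 0, 0, 0, 0] : V8) ∈ Λ) (he3 : (![0, 0, 0, 1, 0, 0, 0, 0] : V8) ∈ Λ) (he4 : (![0, 0, 0, 0, 1, 0, 0, 0] : V8) ∈ Λ) (he5 : (![0, 0, 0, 0, 0, 1, 0, 0] : V8) ∈ Λ) (he6 : (![0, 0, 0, 0, 0, 0, 1, 0] : V8) ∈ Λ) :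
    Ind x Λ {.z1, .zl, .z8, .zab, .w1, .wl, .wy, .w8, .wab, .wf7, .v2, .vl, .v8, .vb, .x2, .xl, .x1} := by
  constructor
  · intro p q r s kp kq kr ks H
    have hp0 : p = 0 := by
      have k := H _ he0
      simp only [Matrix.cons_val] at k
      linarith
    subst hp0
    have hq0 : q = 0 := by
      have k := H _ he1
      simp only [Matrix.cons_val] at k
      linarith
    subst hq0
    have hr0 : r = 0 := by
      have k := H _ he6
      simp only [Matrix.cons_val] at k
      linarith
    subst hr0
    have hs0 : s = 0 := by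
      have k := H _ he3
      simp only [Matrix.cons_val] at k
      linarith
    subst hs0
    exact ⟨rfl, rfl, rfl, rfl⟩
  · intro p q r s t u kp kq kr ks kt ku H
    have hp0 : p = 0 := by
      have k := H _ he0
      simp only [Matrix.cons_val] at k
      linarith
    subst hp0
    have hq0 : q = 0 := by
      have k := H _ he1
      simp only [Matrix.cons_val] at k
      linarith
    subst hq0
    have hr0 : r = 0 := by
      have k := H _ he4
      simp only [Matrix.cons_val] at k
      linarith
    subst hr0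
    have hs0 : s = 0 := by
      have k := H _ he6
      simp only [Matrix.cons_val] at k
      linarith
    subst hs0
    have ht0 : t = 0 := by
      have k := H _ he3
      simp only [Matrix.cons_val] at k
      linarith
    subst ht0
    have hu0 : u = 0 := by
      have k := H _ he5
      simp only [Matrix.cons_val] at k
      linarith
    subst hu0
    exact ⟨rfl, rfl, rfl, rfl, rfl, rfl⟩
  · intro p q r s kp kq kr ks H
    have hp0 : p = 0 := by
      have k := H _ he3
      simp only [Matrix.cons_val] at k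
      linarith
    subst hp0
    have hq0 : q = 0 := by
      have k := H _ he4
      simp only [Matrix.cons_val] at k
      linarith
    subst hq0
    have hr0 : r = 0 := by
      have k := H _ he6
      simp only [Matrix.cons_val] at k
      linarith
    subst hr0
    have hs0 : s = 0 := by
      have k := H _ he2
      simp only [Matrix.cons_val] at k
      linarith
    subst hs0
    exact ⟨rfl, rfl, rfl, rfl⟩
  · intro p q r kp kq kr H
    have hq0 : q = 0 := by
      have k := H _ he4
      simp only [Matrix.cons_val] at k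
      linarith
    subst hq0
    have hp0 : p = 0 := by
      have k := H _ he5
      simp only [Matrix.cons_val] at k
      linarith
    subst hp0
    have hr0 : r = 0 := by
      have k := H _ he2
      simp only [Matrix.cons_val] at k
      linarith
    subst hr0
    exact ⟨rfl, rfl, rfl⟩

theorem sum_J20 {Pr : Par} {n a b v2 v1 x2 x1 : ℕ} (h : Hts Pr n a b v2 v1 x2 x1) :
    8 * Pr.D0 ≤ ∑ g ∈ ({.z1, .zl, .z8, .zab, .w1, .wl, .wy, .w8, .wab, .wf7, .v2, .vl, .v8, .vb, .x2, .xl, .x1} : Finset Gp), Pr.ht g := by
  rw [Finset.sum_insert (by decide), Finset.sum_insert (by decide), Finset.sum_insert (by decide), Finset.sum_insert (by decide), Finset.sum_insert (by decide), Finset.sum_insert (by decide), Finset.sum_insert (by decide), Finset.sum_insert (by decide), Finset.sum_insert (by decide), Finset.sum_insert (by decide), Finset.sum_insert (by decide), Finset.sum_insert (by decide), Finset.sum_insert (by decide), Finset.sum_insert (by decide), Finset.sum_insert (by decide), Finset.sum_insert (by decide), Finset.sum_singleton]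
  have := h.i1
  have := h.hz1
  have := h.hzl
  have := h.hz8
  have := h.hzab
  have := h.hw1
  have := h.hwl
  have := h.hwy
  have := h.hw8
  have := h.hwab
  have := h.hwf7
  have := h.hv2
  have := h.hvl
  have := h.hv8
  have := h.hvb
  have := h.hx2
  have := h.hxl
  have := h.hx1
  have := h.i8
  omega

variable {Pr : Par} {n a b v2 v1 x2 x1 : ℕ}

theorem mem_top_of {Λ : Submodule ℚ V8} (h : finrank ℚ Λ = 8) (v : V8) : v ∈ Λ := by
  have : Λ = ⊤ := Submodule.eq_top_of_finrank_eq (by simp [h])
  rw [this]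
  exact Submodule.mem_top

/-- dimension at most `6` -/
theorem case2_6 (h : Hts Pr n a b v2 v1 x2 x1) (x : ℚ) {Λ : Submodule ℚ V8} (hR : Red Λ)
    (he1 : (![0, 1, 0, 0, 0, 0, 0, 0] : V8) ∈ Λ) (he2 : (![0, 0, 1, 0, 0, 0, 0, 0] : V8) ∈ Λ)
    (hr : finrank ℚ Λ ≤ 6) : Goal Pr x Λ := by
  by_cases h5 : finrank ℚ Λ ≤ 5
  · exact case2 h x hR he1 he2 h5
  rcases hR.f with hf | ⟨h6, h7⟩
  swap
  · exact fin_good hr (ind_J18 x hR.he0 he1 he2 h6) (sum_J18 h) (by decide)
  set W : Submodule ℚ V8 :=
    { carrier := {v | v 6 = 0 ∧ v 7 = 0}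
      add_mem' := by
        rintro v w ⟨h2, h3⟩ ⟨k2, k3⟩
        exact ⟨by rw [Pi.add_apply, h2, k2, add_zero], by rw [Pi.add_apply, h3, k3, add_zero]⟩
      zero_mem' := by simp
      smul_mem' := by
        rintro c v ⟨h2, h3⟩
        exact ⟨by rw [Pi.smul_apply, h2, smul_zero], by rw [Pi.smul_apply, h3, smul_zero]⟩ }
    with hWdef
  have hle : Λ ≤ W := fun v hv => hf v hv
  have hW : finrank ℚ W ≤ 6 := by
    refine fin_le ![0, 1, 2, 3, 4, 5] W ?_
    rintro v ⟨k2, k3⟩ k
    exact ext8 (k 0) (k 1) (k 2) (k 3) (k 4) (k 5) k2 k3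
  have hEq : Λ = W := Submodule.eq_of_le_of_finrank_le hle (by omega)
  have hm : ∀ u0 u1 u2 u3 u4 u5 : ℚ, (![u0, u1, u2, u3, u4, u5, 0, 0] : V8) ∈ Λ := by
    intro u0 u1 u2 u3 u4 u5
    rw [hEq]
    refine ⟨?_, ?_⟩ <;> simp [Matrix.cons_val]
  exact fin_good hr (ind_J19 x hR.he0 he1 he2 (hm _ _ _ _ _ _) (hm _ _ _ _ _ _) (hm _ _ _ _ _ _))
    (sum_J19 h) (by decide)

/-- dimension `8` -/
theorem case2_8 (h : Hts Pr n a b v2 v1 x2 x1) (x : ℚ) {Λ : Submodule ℚ V8}
    (hr : finrank ℚ Λ = 8) : Goal Pr x Λ := by
  have hm := mem_top_of hr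
  exact fin_good hr.le (ind_J20 x (hm _) (hm _) (hm _) (hm _) (hm _) (hm _) (hm _)) (sum_J20 h)
    (by decide)

end Vale.Agent.P030.H605
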