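import Vale.Agent.P030.H605.TableC

/-!
# P030, NV: the finite table, dimension `7`, and the final statement
-/

set_option linter.unusedVariables false

namespace Vale.Agent.P030.H605

open Vale.Agent.P030.T Vale.Agent.P030.H782 Module

theorem ind_J21 (x : ℚ) {Λ : Submodule ℚ V8} {y : ℚ} {m : ℚ} (he0 : (![1, 0, 0, 0, 0, 0, 0, 0] : V8) ∈ Λ) (he1 : (![0, 1, 0, 0, 0, 0, 0, 0] : V8) ∈ Λ) (he2 : (![0, 0, 1, 0, 0, 0, 0, 0] : V8) ∈ Λ) (he6 : (![0, 0, 0, 0, 0, 0, 1, 0] : V8) ∈ Λ) (hC1 : (![0, 0, 0, 1, 0, y, 0, 0] : V8) ∈ Λ) (hC2 : (![0, 0, 0, 0, 1, m, 0, 0] : V8) ∈ Λ) {v : V8} (hv : v ∈ Λ) (hv0 : -v 3 - v 4 + v 5 ≠ 0) {w : V8} (hw : w ∈ Λ) (hw0 : w 5 ≠ 0) :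
    Ind x Λ {.z1, .zl, .z8, .w1, .wl, .wy, .w8, .wab, .v2, .v8, .vb, .x2, .x1} := by
  constructor
  · intro p q r s kp kq kr ks H
    obtain rfl := ks (by decide)
    have hp0 : p = 0 := by
      have k := H _ he0
      simp only [Matrix.cons_val] at k
      linarith
    subst hp0
    have hq0 : q = 0 := by
      have k := H _ he1
      simp only [Matrix.cons_val] at k
      linarith
    subst hq0
    have hr0 : r = 0 := by
      have k := H _ he6
      simp only [Matrix.cons_val] at k
      linarith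
    subst hr0
    exact ⟨rfl, rfl, rfl, rfl⟩
  · intro p q r s t u kp kq kr ks kt ku H
    obtain rfl := ku (by decide)
    have hp0 : p = 0 := by
      have k := H _ he0
      simp only [Matrix.cons_val] at k
      linarith
    subst hp0
    have hq0 : q = 0 := by
      have k := H _ he1
      simp only [Matrix.cons_val] at k
      linarith
    subst hq0
    have hr0 : r = 0 := by
      have k := H _ hC2
      simp only [Matrix.cons_val] at k
      linarith
    subst hr0
    have ht0 : t = 0 := by
      have k := H _ hC1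
      simp only [Matrix.cons_val] at k
      linarith
    subst ht0
    have hs0 : s = 0 := by
      have k := H _ he6
      simp only [Matrix.cons_val] at k
      linarith
    subst hs0
    exact ⟨rfl, rfl, rfl, rfl, rfl, rfl⟩
  · intro p q r s kp kq kr ks H
    obtain rfl := kq (by decide)
    have hr0 : r = 0 := by
      have k := H _ he6
      simp only [Matrix.cons_val] at k
      linarith
    subst hr0
    have hs0 : s = 0 := by
      have k := H _ he2
      simp only [Matrix.cons_val] at k
      linarith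
    subst hs0
    have hp0 : p = 0 := by
      have k := H _ hv
      have k' : p * (-v 3 - v 4 + v 5) = 0 := by linarith
      exact (mul_eq_zero.1 k').resolve_right hv0
    subst hp0
    exact ⟨rfl, rfl, rfl, rfl⟩
  · intro p q r kp kq kr H
    obtain rfl := kq (by decide)
    have hr0 : r = 0 := by
      have k := H _ he2
      simp only [Matrix.cons_val] at k
      linarith
    subst hr0
    have hp0 : p = 0 := by
      have k := H _ hw
      have k' : p * w 5 = 0 := by linarith
      exact (mul_eq_zero.1 k').resolve_right hw0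
    subst hp0
    exact ⟨rfl, rfl, rfl⟩

theorem sum_J21 {Pr : Par} {n a b v2 v1 x2 x1 : ℕ} (h : Hts Pr n a b v2 v1 x2 x1) :
    7 * Pr.D0 ≤ ∑ g ∈ ({.z1, .zl, .z8, .w1, .wl, .wy, .w8, .wab, .v2, .v8, .vb, .x2, .x1} : Finset Gp), Pr.ht g := by
  rw [Finset.sum_insert (by decide), Finset.sum_insert (by decide), Finset.sum_insert (by decide), Finset.sum_insert (by decide), Finset.sum_insert (by decide), Finset.sum_insert (by decide), Finset.sum_insert (by decide), Finset.sum_insert (by decide), Finset.sum_insert (by decide), Finset.sum_insert (by decide), Finset.sum_insert (by decide), Finset.sum_insert (by decide), Finset.sum_singleton]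
  have := h.i1
  have := h.hz1
  have := h.hzl
  have := h.hz8
  have := h.hw1
  have := h.hwl
  have := h.hwy
  have := h.hw8
  have := h.hwab
  have := h.hv2
  have := h.hv8
  have := h.hvb
  have := h.hx2
  have := h.hx1
  have := h.i7a
  omega

theorem ind_J22 (x : ℚ) {Λ : Submodule ℚ V8} {y : ℚ} {m : ℚ} (he0 : (![1, 0, 0, 0, 0, 0, 0, 0] : V8) ∈ Λ) (he1 : (![0, 1, 0, 0, 0, 0, 0, 0] : V8) ∈ Λ) (he2 : (![0, 0, 1, 0, 0, 0, 0, 0] : V8) ∈ Λ) (he6 : (![0, 0, 0, 0, 0, 0, 1, 0] : V8) ∈ Λ) (hB1 : (![0, 0, 0, 1, y, 0, 0, 0] : V8) ∈ Λ) (hB2 : (![0, 0, 0, 0, m, 1, 0, 0] : V8) ∈ Λ) {v : V8} (hv : v ∈ Λ) (hv0 : -v 3 - v 4 + v 5 ≠ 0) {w : V8} (hw : w ∈ Λ) (hw0 : w 5 ≠ 0) :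
    Ind x Λ {.z1, .zl, .z8, .w1, .wl, .wy, .wab, .wf7, .v2, .v8, .vb, .x2, .x1} := by
  constructor
  · intro p q r s kp kq kr ks H
    obtain rfl := ks (by decide)
    have hp0 : p = 0 := by
      have k := H _ he0
      simp only [Matrix.cons_val] at k
      linarith
    subst hp0
    have hq0 : q = 0 := by
      have k := H _ he1
      simp only [Matrix.cons_val] at k
      linarith
    subst hq0
    have hr0 : r = 0 := by
      have k := H _ he6
      simp only [Matrix.cons_val] at k
      linarith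
    subst hr0
    exact ⟨rfl, rfl, rfl, rfl⟩
  · intro p q r s t u kp kq kr ks kt ku H
    obtain rfl := ks (by decide)
    have hp0 : p = 0 := by
      have k := H _ he0
      simp only [Matrix.cons_val] at k
      linarith
    subst hp0
    have hq0 : q = 0 := by
      have k := H _ he1
      simp only [Matrix.cons_val] at k
      linarith
    subst hq0
    have hr0 : r = 0 := by
      have k := H _ he6
      simp only [Matrix.cons_val] at k
      linarith
    subst hr0
    have ht0 : t = 0 := by
      have k := H _ hB1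
      simp only [Matrix.cons_val] at k
      linarith
    subst ht0
    have hu0 : u = 0 := by
      have k := H _ hB2
      simp only [Matrix.cons_val] at k
      linarith
    subst hu0
    exact ⟨rfl, rfl, rfl, rfl, rfl, rfl⟩
  · intro p q r s kp kq kr ks H
    obtain rfl := kq (by decide)
    have hr0 : r = 0 := by
      have k := H _ he6
      simp only [Matrix.cons_val] at k
      linarith
    subst hr0
    have hs0 : s = 0 := by
      have k := H _ he2
      simp only [Matrix.cons_val] at k
      linarith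
    subst hs0
    have hp0 : p = 0 := by
      have k := H _ hv
      have k' : p * (-v 3 - v 4 + v 5) = 0 := by linarith
      exact (mul_eq_zero.1 k').resolve_right hv0
    subst hp0
    exact ⟨rfl, rfl, rfl, rfl⟩
  · intro p q r kp kq kr H
    obtain rfl := kq (by decide)
    have hr0 : r = 0 := by
      have k := H _ he2
      simp only [Matrix.cons_val] at k
      linarith
    subst hr0
    have hp0 : p = 0 := by
      have k := H _ hw
      have k' : p * w 5 = 0 := by linarith
      exact (mul_eq_zero.1 k').resolve_right hw0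
    subst hp0
    exact ⟨rfl, rfl, rfl⟩

theorem sum_J22 {Pr : Par} {n a b v2 v1 x2 x1 : ℕ} (h : Hts Pr n a b v2 v1 x2 x1) :
    7 * Pr.D0 ≤ ∑ g ∈ ({.z1, .zl, .z8, .w1, .wl, .wy, .wab, .wf7, .v2, .v8, .vb, .x2, .x1} : Finset Gp), Pr.ht g := by
  rw [Finset.sum_insert (by decide), Finset.sum_insert (by decide), Finset.sum_insert (by decide), Finset.sum_insert (by decide), Finset.sum_insert (by decide), Finset.sum_insert (by decide), Finset.sum_insert (by decide), Finset.sum_insert (by decide), Finset.sum_insert (by decide), Finset.sum_insert (by decide), Finset.sum_insert (by decide), Finset.sum_insert (by decide), Finset.sum_singleton]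
  have := h.i1
  have := h.hz1
  have := h.hzl
  have := h.hz8
  have := h.hw1
  have := h.hwl
  have := h.hwy
  have := h.hwab
  have := h.hwf7
  have := h.hv2
  have := h.hv8
  have := h.hvb
  have := h.hx2
  have := h.hx1
  have := h.i7a
  omega

theorem ind_J23 (x : ℚ) {Λ : Submodule ℚ V8} (he0 : (![1, 0, 0, 0, 0, 0, 0, 0] : V8) ∈ Λ) (he1 : (![0, 1, 0, 0, 0, 0, 0, 0] : V8) ∈ Λ) (he2 : (![0, 0, 1, 0, 0, 0, 0, 0] : V8) ∈ Λ) (he6 : (![0, 0, 0, 0, 0, 0, 1, 0] : V8) ∈ Λ) (he4 : (![0, 0, 0, 0, 1, 0, 0, 0] : V8) ∈ Λ) (he5 : (![0, 0, 0, 0, 0, 1, 0, 0] : V8) ∈ Λ) {v : V8} (hv : v ∈ Λ) (hv0 : -v 3 - v 4 + v 5 ≠ 0) {w : V8} (hw : w ∈ Λ) (hw0 : w 5 ≠ 0) :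
    Ind x Λ {.z1, .zl, .z8, .w1, .wl, .wy, .w8, .wf7, .v2, .v8, .vb, .x2, .x1} := by
  constructor
  · intro p q r s kp kq kr ks H
    obtain rfl := ks (by decide)
    have hp0 : p = 0 := by
      have k := H _ he0
      simp only [Matrix.cons_val] at k
      linarith
    subst hp0
    have hq0 : q = 0 := by
      have k := H _ he1
      simp only [Matrix.cons_val] at k
      linarith
    subst hq0
    have hr0 : r = 0 := by
      have k := H _ he6
      simp only [Matrix.cons_val] at k
      linarith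
    subst hr0
    exact ⟨rfl, rfl, rfl, rfl⟩
  · intro p q r s t u kp kq kr ks kt ku H
    obtain rfl := kt (by decide)
    have hp0 : p = 0 := by
      have k := H _ he0
      simp only [Matrix.cons_val] at k
      linarith
    subst hp0
    have hq0 : q = 0 := by
      have k := H _ he1
      simp only [Matrix.cons_val] at k
      linarith
    subst hq0
    have hr0 : r = 0 := by
      have k := H _ he4
      simp only [Matrix.cons_val] at k
      linarith
    subst hr0
    have hu0 : u = 0 := by
      have k := H _ he5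
      simp only [Matrix.cons_val] at k
      linarith
    subst hu0
    have hs0 : s = 0 := by
      have k := H _ he6
      simp only [Matrix.cons_val] at k
      linarith
    subst hs0
    exact ⟨rfl, rfl, rfl, rfl, rfl, rfl⟩
  · intro p q r s kp kq kr ks H
    obtain rfl := kq (by decide)
    have hr0 : r = 0 := by
      have k := H _ he6
      simp only [Matrix.cons_val] at k
      linarith
    subst hr0
    have hs0 : s = 0 := by
      have k := H _ he2
      simp only [Matrix.cons_val] at k
      linarith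
    subst hs0
    have hp0 : p = 0 := by
      have k := H _ hv
      have k' : p * (-v 3 - v 4 + v 5) = 0 := by linarith
      exact (mul_eq_zero.1 k').resolve_right hv0
    subst hp0
    exact ⟨rfl, rfl, rfl, rfl⟩
  · intro p q r kp kq kr H
    obtain rfl := kq (by decide)
    have hr0 : r = 0 := by
      have k := H _ he2
      simp only [Matrix.cons_val] at k
      linarith
    subst hr0
    have hp0 : p = 0 := by
      have k := H _ hw
      have k' : p * w 5 = 0 := by linarith
      exact (mul_eq_zero.1 k').resolve_right hw0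
    subst hp0
    exact ⟨rfl, rfl, rfl⟩

theorem sum_J23 {Pr : Par} {n a b v2 v1 x2 x1 : ℕ} (h : Hts Pr n a b v2 v1 x2 x1) :
    7 * Pr.D0 ≤ ∑ g ∈ ({.z1, .zl, .z8, .w1, .wl, .wy, .w8, .wf7, .v2, .v8, .vb, .x2, .x1} : Finset Gp), Pr.ht g := by
  rw [Finset.sum_insert (by decide), Finset.sum_insert (by decide), Finset.sum_insert (by decide), Finset.sum_insert (by decide), Finset.sum_insert (by decide), Finset.sum_insert (by decide), Finset.sum_insert (by decide), Finset.sum_insert (by decide), Finset.sum_insert (by decide), Finset.sum_insert (by decide), Finset.sum_insert (by decide), Finset.sum_insert (by decide), Finset.sum_singleton]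
  have := h.i1
  have := h.hz1
  have := h.hzl
  have := h.hz8
  have := h.hw1
  have := h.hwl
  have := h.hwy
  have := h.hw8
  have := h.hwf7
  have := h.hv2
  have := h.hv8
  have := h.hvb
  have := h.hx2
  have := h.hx1
  have := h.i7a
  omega

theorem ind_J24 (x : ℚ) {Λ : Submodule ℚ V8} (he0 : (![1, 0, 0, 0, 0, 0, 0, 0] : V8) ∈ Λ) (he1 : (![0, 1, 0, 0, 0, 0, 0, 0] : V8) ∈ Λ) (he2 : (![0, 0, 1, 0, 0, 0, 0, 0] : V8) ∈ Λ) (he6 : (![0, 0, 0, 0, 0, 0, 1, 0] : V8) ∈ Λ) (he3 : (![0, 0, 0, 1, 0, 0, 0, 0] : V8) ∈ Λ) (he4 : (![0, 0, 0, 0, 1, 0, 0, 0] : V8) ∈ Λ) :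
    Ind x Λ {.z1, .zl, .z8, .w1, .wl, .wy, .w8, .wab, .v2, .v8, .vb, .xl, .x1} := by
  constructor
  · intro p q r s kp kq kr ks H
    obtain rfl := ks (by decide)
    have hp0 : p = 0 := by
      have k := H _ he0
      simp only [Matrix.cons_val] at k
      linarith
    subst hp0
    have hq0 : q = 0 := by
      have k := H _ he1
      simp only [Matrix.cons_val] at k
      linarith
    subst hq0
    have hr0 : r = 0 := by
      have k := H _ he6
      simp only [Matrix.cons_val] at k
      linarith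
    subst hr0
    exact ⟨rfl, rfl, rfl, rfl⟩
  · intro p q r s t u kp kq kr ks kt ku H
    obtain rfl := ku (by decide)
    have hp0 : p = 0 := by
      have k := H _ he0
      simp only [Matrix.cons_val] at k
      linarith
    subst hp0
    have hq0 : q = 0 := by
      have k := H _ he1
      simp only [Matrix.cons_val] at k
      linarith
    subst hq0
    have hr0 : r = 0 := by
      have k := H _ he4
      simp only [Matrix.cons_val] at k
      linarith
    subst hr0
    have ht0 : t = 0 := by
      have k := H _ he3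
      simp only [Matrix.cons_val] at k
      linarith
    subst ht0
    have hs0 : s = 0 := by
      have k := H _ he6
      simp only [Matrix.cons_val] at k
      linarith
    subst hs0
    exact ⟨rfl, rfl, rfl, rfl, rfl, rfl⟩
  · intro p q r s kp kq kr ks H
    obtain rfl := kq (by decide)
    have hr0 : r = 0 := by
      have k := H _ he6
      simp only [Matrix.cons_val] at k
      linarith
    subst hr0
    have hs0 : s = 0 := by
      have k := H _ he2
      simp only [Matrix.cons_val] at k
      linarith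
    subst hs0
    have hp0 : p = 0 := by
      have k := H _ he3
      simp only [Matrix.cons_val] at k
      linarith
    subst hp0
    exact ⟨rfl, rfl, rfl, rfl⟩
  · intro p q r kp kq kr H
    obtain rfl := kp (by decide)
    have hr0 : r = 0 := by
      have k := H _ he2
      simp only [Matrix.cons_val] at k
      linarith
    subst hr0
    have hq0 : q = 0 := by
      have k := H _ he4
      simp only [Matrix.cons_val] at k
      linarith
    subst hq0
    exact ⟨rfl, rfl, rfl⟩

theorem sum_J24 {Pr : Par} {n a b v2 v1 x2 x1 : ℕ} (h : Hts Pr n a b v2 v1 x2 x1) :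
    7 * Pr.D0 ≤ ∑ g ∈ ({.z1, .zl, .z8, .w1, .wl, .wy, .w8, .wab, .v2, .v8, .vb, .xl, .x1} : Finset Gp), Pr.ht g := by
  rw [Finset.sum_insert (by decide), Finset.sum_insert (by decide), Finset.sum_insert (by decide), Finset.sum_insert (by decide), Finset.sum_insert (by decide), Finset.sum_insert (by decide), Finset.sum_insert (by decide), Finset.sum_insert (by decide), Finset.sum_insert (by decide), Finset.sum_insert (by decide), Finset.sum_insert (by decide), Finset.sum_insert (by decide), Finset.sum_singleton]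
  have := h.i1
  have := h.hz1
  have := h.hzl
  have := h.hz8
  have := h.hw1
  have := h.hwl
  have := h.hwy
  have := h.hw8
  have := h.hwab
  have := h.hv2
  have := h.hv8
  have := h.hvb
  have := h.hxl
  have := h.hx1
  have := h.i7b
  omega

theorem ind_J25 (x : ℚ) {Λ : Submodule ℚ V8} (he0 : (![1, 0, 0, 0, 0, 0, 0, 0] : V8) ∈ Λ) (he1 : (![0, 1, 0, 0, 0, 0, 0, 0] : V8) ∈ Λ) (he2 : (![0, 0, 1, 0, 0, 0, 0, 0] : V8) ∈ Λ) (he6 : (![0, 0, 0, 0, 0, 0, 1, 0] : V8) ∈ Λ) (hK1 : (![0, 0, 0, 1, 0, 1, 0, 0] : V8) ∈ Λ) (hK2 : (![0, 0, 0, 0, 1, 1, 0, 0] : V8) ∈ Λ) :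
    Ind x Λ {.z1, .zl, .z8, .zab, .w1, .wl, .wy, .w8, .wab, .vl, .v8, .vb, .x2, .xl, .x1} := by
  constructor
  · intro p q r s kp kq kr ks H
    have hp0 : p = 0 := by
      have k := H _ he0
      simp only [Matrix.cons_val] at k
      linarith
    subst hp0
    have hq0 : q = 0 := by
      have k := H _ he1
      simp only [Matrix.cons_val] at k
      linarith
    subst hq0
    have hr0 : r = 0 := by
      have k := H _ he6
      simp only [Matrix.cons_val] at k
      linarith
    subst hr0
    have hs0 : s = 0 := by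
      have k := H _ hK1
      simp only [Matrix.cons_val] at k
      linarith
    subst hs0
    exact ⟨rfl, rfl, rfl, rfl⟩
  · intro p q r s t u kp kq kr ks kt ku H
    obtain rfl := ku (by decide)
    have hp0 : p = 0 := by
      have k := H _ he0
      simp only [Matrix.cons_val] at k
      linarith
    subst hp0
    have hq0 : q = 0 := by
      have k := H _ he1
      simp only [Matrix.cons_val] at k
      linarith
    subst hq0
    have hr0 : r = 0 := by
      have k := H _ hK2
      simp only [Matrix.cons_val] at k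
      linarith
    subst hr0
    have ht0 : t = 0 := by
      have k := H _ hK1
      simp only [Matrix.cons_val] at k
      linarith
    subst ht0
    have hs0 : s = 0 := by
      have k := H _ he6
      simp only [Matrix.cons_val] at k
      linarith
    subst hs0
    exact ⟨rfl, rfl, rfl, rfl, rfl, rfl⟩
  · intro p q r s kp kq kr ks H
    obtain rfl := kp (by decide)
    have hr0 : r = 0 := by
      have k := H _ he6
      simp only [Matrix.cons_val] at k
      linarith
    subst hr0
    have hs0 : s = 0 := by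
      have k := H _ he2
      simp only [Matrix.cons_val] at k
      linarith
    subst hs0
    have hq0 : q = 0 := by
      have k := H _ hK1
      simp only [Matrix.cons_val] at k
      linarith
    subst hq0
    exact ⟨rfl, rfl, rfl, rfl⟩
  · intro p q r kp kq kr H
    have hr0 : r = 0 := by
      have k := H _ he2
      simp only [Matrix.cons_val] at k
      linarith
    subst hr0
    have hp0 : p = 0 := by
      have k := H _ hK2
      simp only [Matrix.cons_val] at k
      linarith
    subst hp0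
    have hq0 : q = 0 := by
      have k := H _ hK1
      simp only [Matrix.cons_val] at k
      linarith
    subst hq0
    exact ⟨rfl, rfl, rfl⟩

theorem sum_J25 {Pr : Par} {n a b v2 v1 x2 x1 : ℕ} (h : Hts Pr n a b v2 v1 x2 x1) :
    7 * Pr.D0 ≤ ∑ g ∈ ({.z1, .zl, .z8, .zab, .w1, .wl, .wy, .w8, .wab, .vl, .v8, .vb, .x2, .xl, .x1} : Finset Gp), Pr.ht g := by
  rw [Finset.sum_insert (by decide), Finset.sum_insert (by decide), Finset.sum_insert (by decide), Finset.sum_insert (by decide), Finset.sum_insert (by decide), Finset.sum_insert (by decide), Finset.sum_insert (by decide), Finset.sum_insert (by decide), Finset.sum_insert (by decide), Finset.sum_insert (by decide), Finset.sum_insert (by decide), Finset.sum_insert (by decide), Finset.sum_insert (by decide), Finset.sum_insert (by decide), Finset.sum_singleton]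
  have := h.i1
  have := h.hz1
  have := h.hzl
  have := h.hz8
  have := h.hzab
  have := h.hw1
  have := h.hwl
  have := h.hwy
  have := h.hw8
  have := h.hwab
  have := h.hvl
  have := h.hv8
  have := h.hvb
  have := h.hx2
  have := h.hxl
  have := h.hx1
  have := h.i7c
  omega

variable {Pr : Par} {n a b v2 v1 x2 x1 : ℕ}

/-- dimension `7`: `Λ` is the kernel of `A v_3 + B v_4 + C v_5` -/
theorem exists_abc {Λ : Submodule ℚ V8} (hr : finrank ℚ Λ = 7)
    (he0 : (![1, 0, 0, 0, 0, 0, 0, 0] : V8) ∈ Λ)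
    (he1 : (![0, 1, 0, 0, 0, 0, 0, 0] : V8) ∈ Λ) (he2 : (![0, 0, 1, 0, 0, 0, 0, 0] : V8) ∈ Λ)
    (h6 : (![0, 0, 0, 0, 0, 0, 1, 0] : V8) ∈ Λ) (h7 : (![0, 0, 0, 0, 0, 0, 0, 1] : V8) ∈ Λ) :
    ∃ A B C : ℚ, ¬ (A = 0 ∧ B = 0 ∧ C = 0) ∧
      ∀ v : V8, v ∈ Λ ↔ A * v 3 + B * v 4 + C * v 5 = 0 := by
  have hlt : Λ < ⊤ := by
    rw [lt_top_iff_ne_top]
    intro ht
    rw [ht] at hr
    simp at hr
  obtain ⟨f, hf0, hf⟩ := Submodule.exists_le_ker_of_lt_top Λ hlt
  have hfe : ∀ v : V8, f v = f (![0, 0, 0, 1, 0, 0, 0, 0]) * v 3 + f (![0, 0, 0, 0, 1, 0, 0, 0]) * v 4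
      + f (![0, 0, 0, 0, 0, 1, 0, 0]) * v 5 := by
    intro v
    have h0 : f (![1, 0, 0, 0, 0, 0, 0, 0]) = 0 := hf he0
    have h1 : f (![0, 1, 0, 0, 0, 0, 0, 0]) = 0 := hf he1
    have h2 : f (![0, 0, 1, 0, 0, 0, 0, 0]) = 0 := hf he2
    have k6 : f (![0, 0, 0, 0, 0, 0, 1, 0]) = 0 := hf h6
    have k7 : f (![0, 0, 0, 0, 0, 0, 0, 1]) = 0 := hf h7
    have hv : v = v 0 • (![1, 0, 0, 0, 0, 0, 0, 0] : V8) + v 1 • (![0, 1, 0, 0, 0, 0, 0, 0] : V8)
        + v 2 • (![0, 0, 1, 0, 0, 0, 0, 0] : V8) + v 3 • (![0, 0, 0, 1, 0, 0, 0, 0] : V8)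
        + v 4 • (![0, 0, 0, 0, 1, 0, 0, 0] : V8) + v 5 • (![0, 0, 0, 0, 0, 1, 0, 0] : V8)
        + v 6 • (![0, 0, 0, 0, 0, 0, 1, 0] : V8) + v 7 • (![0, 0, 0, 0, 0, 0, 0, 1] : V8) := by
      ext i
      fin_cases i <;> simp
    conv_lhs => rw [hv]
    simp only [map_add, map_smul, h0, h1, h2, k6, k7, smul_eq_mul]
    ring
  have hker : Λ = LinearMap.ker f := by
    refine Submodule.eq_of_le_of_finrank_le hf ?_
    have := Module.Dual.finrank_ker_add_one_of_ne_zero hf0
    have h8 : finrank ℚ V8 = 8 := by simp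
    omega
  refine ⟨f (![0, 0, 0, 1, 0, 0, 0, 0]), f (![0, 0, 0, 0, 1, 0, 0, 0]),
    f (![0, 0, 0, 0, 0, 1, 0, 0]), ?_, fun v => ?_⟩
  · rintro ⟨hA, hB, hC⟩
    apply hf0
    refine LinearMap.ext fun v => ?_
    rw [hfe v, hA, hB, hC, LinearMap.zero_apply]
    ring
  · rw [← hfe v]
    constructor
    · intro hv
      exact hf hv
    · intro hv
      rw [hker]
      exact hv

/-- dimension `7` -/
theorem case2_7 (h : Hts Pr n a b v2 v1 x2 x1) (x : ℚ) {Λ : Submodule ℚ V8} (hR : Red Λ)
    (he1 : (![0, 1, 0, 0, 0, 0, 0, 0] : V8) ∈ Λ) (he2 : (![0, 0, 1, 0, 0, 0, 0, 0] : V8) ∈ Λ)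
    (hr : finrank ℚ Λ = 7) : Goal Pr x Λ := by
  have he0 := hR.he0
  rcases hR.f with hf | ⟨h6, h7⟩
  · exfalso
    have : finrank ℚ Λ ≤ 6 := by
      refine fin_le ![0, 1, 2, 3, 4, 5] Λ ?_
      intro v hv k
      exact ext8 (k 0) (k 1) (k 2) (k 3) (k 4) (k 5) (hf v hv).1 (hf v hv).2
    omega
  obtain ⟨A, B, C, hABC, hm⟩ := exists_abc hr he0 he1 he2 h6 h7
  by_cases hv : ∃ v ∈ Λ, -v 3 - v 4 + v 5 ≠ 0
  · obtain ⟨v, hv, hv0⟩ := hv
    by_cases hw : ∃ w ∈ Λ, w 5 ≠ 0
    · obtain ⟨w, hw, hw0⟩ := hw
      by_cases hC : C = 0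
      · by_cases hB : B = 0
        · -- `B = C = 0`
          have he4 : (![0, 0, 0, 0, 1, 0, 0, 0] : V8) ∈ Λ := by
            rw [hm]; simp [Matrix.cons_val, hB]
          have he5 : (![0, 0, 0, 0, 0, 1, 0, 0] : V8) ∈ Λ := by
            rw [hm]; simp [Matrix.cons_val, hC]
          exact fin_good hr.le (ind_J23 x he0 he1 he2 h6 he4 he5 hv hv0 hw hw0) (sum_J23 h)
            (by decide)
        · have hB1 : (![0, 0, 0, 1, -A / B, 0, 0, 0] : V8) ∈ Λ := by
            rw [hm]; simp only [Matrix.cons_val]; field_simp; ring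
          have hB2 : (![0, 0, 0, 0, -C / B, 1, 0, 0] : V8) ∈ Λ := by
            rw [hm]; simp only [Matrix.cons_val]; field_simp; ring
          exact fin_good hr.le (ind_J22 x he0 he1 he2 h6 hB1 hB2 hv hv0 hw hw0) (sum_J22 h)
            (by decide)
      · have hC1 : (![0, 0, 0, 1, 0, -A / C, 0, 0] : V8) ∈ Λ := by
          rw [hm]; simp only [Matrix.cons_val]; field_simp; ring
        have hC2 : (![0, 0, 0, 0, 1, -B / C, 0, 0] : V8) ∈ Λ := by
          rw [hm]; simp only [Matrix.cons_val]; field_simp; ring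
        exact fin_good hr.le (ind_J21 x he0 he1 he2 h6 hC1 hC2 hv hv0 hw hw0) (sum_J21 h)
          (by decide)
    · -- `v_5 = 0` on `Λ` : `A = B = 0`
      have h5 : ∀ w ∈ Λ, w 5 = 0 := fun w hw' => by
        by_contra hc
        exact hw ⟨w, hw', hc⟩
      have hC : C ≠ 0 := by
        intro hC
        have : (![0, 0, 0, 0, 0, 1, 0, 0] : V8) ∈ Λ := by
          rw [hm]; simp [Matrix.cons_val, hC]
        have := h5 _ this
        simp [Matrix.cons_val] at this
      have he3 : (![0, 0, 0, 1, 0, 0, 0, 0] : V8) ∈ Λ := by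
        have k : (![0, 0, 0, 1, 0, -A / C, 0, 0] : V8) ∈ Λ := by
          rw [hm]; simp only [Matrix.cons_val]; field_simp; ring
        have k5 := h5 _ k
        simp only [Matrix.cons_val] at k5
        rw [k5] at k
        exact k
      have he4 : (![0, 0, 0, 0, 1, 0, 0, 0] : V8) ∈ Λ := by
        have k : (![0, 0, 0, 0, 1, -B / C, 0, 0] : V8) ∈ Λ := by
          rw [hm]; simp only [Matrix.cons_val]; field_simp; ring
        have k5 := h5 _ k
        simp only [Matrix.cons_val] at k5
        rw [k5] at k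
        exact k
      exact fin_good hr.le (ind_J24 x he0 he1 he2 h6 he3 he4) (sum_J24 h) (by decide)
  · -- `v_5 = v_3 + v_4` on `Λ`
    have h5 : ∀ v ∈ Λ, -v 3 - v 4 + v 5 = 0 := fun v hv' => by
      by_contra hc
      exact hv ⟨v, hv', hc⟩
    have hC : C ≠ 0 := by
      intro hC
      have : (![0, 0, 0, 0, 0, 1, 0, 0] : V8) ∈ Λ := by
        rw [hm]; simp [Matrix.cons_val, hC]
      have := h5 _ this
      simp [Matrix.cons_val] at this
    have hK1 : (![0, 0, 0, 1, 0, 1, 0, 0] : V8) ∈ Λ := by
      have k : (![0, 0, 0, 1, 0, -A / C, 0, 0] : V8) ∈ Λ := by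
        rw [hm]; simp only [Matrix.cons_val]; field_simp; ring
      have k5 := h5 _ k
      simp only [Matrix.cons_val] at k5
      rw [show -A / C = 1 by linarith] at k
      exact k
    have hK2 : (![0, 0, 0, 0, 1, 1, 0, 0] : V8) ∈ Λ := by
      have k : (![0, 0, 0, 0, 1, -B / C, 0, 0] : V8) ∈ Λ := by
        rw [hm]; simp only [Matrix.cons_val]; field_simp; ring
      have k5 := h5 _ k
      simp only [Matrix.cons_val] at k5
      rw [show -B / C = 1 by linarith] at k
      exact k
    exact fin_good hr.le (ind_J25 x he0 he1 he2 h6 hK1 hK2) (sum_J25 h) (by decide)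

/-- **the finite table** -/
theorem table_all (h : Hts Pr n a b v2 v1 x2 x1) (x : ℚ) {Λ : Submodule ℚ V8} (hS : Sta Λ) :
    Goal Pr x Λ := by
  by_cases h5 : finrank ℚ Λ ≤ 5
  · exact table_le5 h x hS h5
  rcases hS.one with he0 | ⟨c, hc⟩
  swap
  · exfalso
    have := finrank_span_le_card (R := ℚ) ({![c, 1, 0, 0, 0, 0, 0, 0]} : Set V8)
    rw [hc] at h5
    simp at this
    omega
  have hR := red_of hS he0
  by_cases he2 : (![0, 0, 1, 0, 0, 0, 0, 0] : V8) ∈ Λ
  · by_cases h1 : ∃ y, (![0, 1, y, 0, 0, 0, 0, 0] : V8) ∈ Λ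
    · obtain ⟨y, hy⟩ := h1
      have he1 : (![0, 1, 0, 0, 0, 0, 0, 0] : V8) ∈ Λ := by
        refine comb hy he2 (a := 1) (b := - y) ?_
        intro i
        fin_cases i <;> simp
      have h8 : finrank ℚ Λ ≤ 8 := by
        have := Submodule.finrank_le Λ
        simpa using this
      by_cases h6 : finrank ℚ Λ ≤ 6
      · exact case2_6 h x hR he1 he2 h6
      by_cases h7 : finrank ℚ Λ = 7
      · exact case2_7 h x hR he1 he2 h7
      · exact case2_8 h x (by omega)
    · push Not at h1
      exact case1a h x hR he2 h1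
  · by_cases h1 : ∃ y, (![0, 1, y, 0, 0, 0, 0, 0] : V8) ∈ Λ
    · obtain ⟨y, hy⟩ := h1
      exact case1b h x hR he2 hy
    · push Not at h1
      exact case0 h x hR he2 h1

/-- **`TableSt` under the linear inequalities** -/
theorem tableSt (h : Hts Pr n a b v2 v1 x2 x1) : TableSt Pr := by
  intro x Λ hS
  obtain ⟨J, hI, hs, hc⟩ := table_all h x hS
  exact ⟨J, fun c a ha hv g => ind_spec hI c a ha hv g, hs, hc⟩

end Vale.Agent.P030.H605
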